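import Vale.Agent.P358.Core

/-! Channels in Kraus form, tensor products and ensembles. -/

set_option linter.unusedSectionVars false

namespace Vale.Agent.P358

open Matrix Finset Real
open scoped ComplexOrder Kronecker

/-- Kraus form with an arbitrary finite index type. -/
def Kraus {c d : Type} [Fintype c] [DecidableEq c] [Fintype d]
    (M : Matrix c c ℂ → Matrix d d ℂ) : Prop :=
  ∃ (E : Type) (_ : Fintype E) (K : E → Matrix d c ℂ), ∑ e, (K e)ᴴ * K e = 1 ∧
    ∀ X, M X = ∑ e, K e * X * (K e)ᴴ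

section
variable {a b c d : Type} [Fintype a] [DecidableEq a] [Fintype b] [DecidableEq b]
  [Fintype c] [DecidableEq c] [Fintype d] [DecidableEq d]

lemma IsChannel.kraus {M : Matrix c c ℂ → Matrix d d ℂ} (h : IsChannel M) : Kraus M := by
  obtain ⟨r, K, h1, h2⟩ := h
  exact ⟨Fin r, inferInstance, K, h1, h2⟩

lemma Kraus.lin {M : Matrix c c ℂ → Matrix d d ℂ} (h : Kraus M) : IsLinearMap ℂ M := by
  obtain ⟨E, _, K, -, h2⟩ := h
  constructor
  · intro X Y; simp [h2, Matrix.mul_add, Matrix.add_mul, Finset.sum_add_distrib]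
  · intro t X; simp [h2, Finset.smul_sum]

lemma Kraus.trace {M : Matrix c c ℂ → Matrix d d ℂ} (h : Kraus M) (X : Matrix c c ℂ) :
    (M X).trace = X.trace := by
  obtain ⟨E, _, K, h1, h2⟩ := h
  rw [h2, trace_sum]
  simp only [fun e => trace_mul_cycle (K e) X (K e)ᴴ]
  rw [← trace_sum, ← Matrix.sum_mul, h1, Matrix.one_mul]

lemma Kraus.psd {M : Matrix c c ℂ → Matrix d d ℂ} (h : Kraus M) {X : Matrix c c ℂ}
    (hX : X.PosSemidef) : (M X).PosSemidef := by
  obtain ⟨E, _, K, -, h2⟩ := h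
  rw [h2]
  exact posSemidef_sum _ fun e _ => hX.mul_mul_conjTranspose_same _

lemma lin_sum {M : Matrix c c ℂ → Matrix d d ℂ} (h : IsLinearMap ℂ M) {ι : Type*} [Fintype ι]
    (X : ι → Matrix c c ℂ) : M (∑ i, X i) = ∑ i, M (X i) :=
  map_sum (h.mk' M) X Finset.univ

lemma lin_expand {M : Matrix c c ℂ → Matrix d d ℂ} (h : IsLinearMap ℂ M) (X : Matrix c c ℂ)
    (i j : d) : M X i j = ∑ k, ∑ l, M (single k l 1) i j * X k l := by
  conv_lhs => rw [matrix_eq_sum_single X]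
  rw [lin_sum h, Matrix.sum_apply]
  refine Finset.sum_congr rfl fun k _ => ?_
  rw [lin_sum h, Matrix.sum_apply]
  refine Finset.sum_congr rfl fun l _ => ?_
  rw [show single k l (X k l) = X k l • single k l (1 : ℂ) by simp, h.map_smul]
  simp [mul_comm]

lemma kraus_single {E : Type} [Fintype E] (K : E → Matrix d c ℂ) (k l : c) (i j : d) :
    (∑ e, K e * single k l (1 : ℂ) * (K e)ᴴ) i j = ∑ e, K e i k * star (K e j l) := by
  rw [Matrix.sum_apply]
  refine Finset.sum_congr rfl fun e _ => ?_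
  simp [mul_apply, single_apply, ite_and]

lemma kraus_expand {E : Type} [Fintype E] (K : E → Matrix d c ℂ) (X : Matrix c c ℂ) (i j : d) :
    (∑ e, K e * X * (K e)ᴴ) i j = ∑ k, ∑ l, (∑ e, K e i k * star (K e j l)) * X k l := by
  have : IsLinearMap ℂ (fun X : Matrix c c ℂ => ∑ e, K e * X * (K e)ᴴ) := by
    constructor
    · intro X Y; simp [Matrix.mul_add, Matrix.add_mul, Finset.sum_add_distrib]
    · intro t X; simp [Finset.smul_sum]
  rw [lin_expand this X i j]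
  simp only [kraus_single]

lemma Kraus.pow {N : Matrix a a ℂ → Matrix b b ℂ} (h : Kraus N) (n : ℕ) :
    Kraus (tensorPow N n) := by
  obtain ⟨E, _, K, h1, h2⟩ := h
  classical
  refine ⟨Fin n → E, inferInstance, fun e => Matrix.of fun i k => ∏ m, K (e m) (i m) (k m), ?_, ?_⟩
  · ext k l
    have h3 : ∀ k l : a, ∑ p : E × b, star (K p.1 p.2 k) * K p.1 p.2 l = if k = l then 1 else 0 := by
      intro k l
      have := congrFun (congrFun h1 k) l
      rw [Matrix.sum_apply, one_apply] at this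
      rw [← this, Fintype.sum_prod_type]
      simp [mul_apply]
    rw [Matrix.sum_apply]
    simp only [mul_apply, conjTranspose_apply, of_apply, star_prod, ← Finset.prod_mul_distrib]
    rw [← Fintype.sum_prod_type', ← (Equiv.arrowProdEquivProdArrow (Fin n) (fun _ => E)
      (fun _ => b)).sum_comp]
    simp only [Equiv.arrowProdEquivProdArrow_apply]
    rw [← Fintype.piFinset_univ, ← Finset.prod_univ_sum
      (f := fun m (p : E × b) => star (K p.1 p.2 (k m)) * K p.1 p.2 (l m))]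
    simp only [h3, one_apply, Finset.prod_ite_zero, Finset.prod_const_one]
    simp [funext_iff]
  · intro X
    ext i j
    rw [kraus_expand]
    unfold tensorPow
    refine Finset.sum_congr rfl fun k _ => Finset.sum_congr rfl fun l _ => ?_
    congr 1
    simp only [h2, kraus_single, of_apply, star_prod, ← Finset.prod_mul_distrib]
    rw [Finset.prod_univ_sum, Fintype.piFinset_univ]

lemma gadc_kraus {γ ν : ℝ} (hγ : γ ∈ Set.Icc (0 : ℝ) 1) (hν : ν ∈ Set.Icc (0 : ℝ) 1) :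
    Kraus (gadc γ ν) := by
  obtain ⟨h1, h2, h3, h4⟩ := sq_facts hγ hν
  set g : ℂ := ((√γ : ℝ) : ℂ) with hg
  set e : ℂ := ((√(1 - γ) : ℝ) : ℂ) with he
  set r : ℂ := ((√ν : ℝ) : ℂ) with hr
  set s : ℂ := ((√(1 - ν) : ℝ) : ℂ) with hs
  have cg : (starRingEnd ℂ) g = g := Complex.conj_ofReal _
  have ce : (starRingEnd ℂ) e = e := Complex.conj_ofReal _
  have cr : (starRingEnd ℂ) r = r := Complex.conj_ofReal _
  have cs : (starRingEnd ℂ) s = s := Complex.conj_ofReal _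
  refine ⟨Fin 4, inferInstance, ![!![s, 0; 0, e * s], !![0, g * s; 0, 0], !![e * r, 0; 0, r],
    !![0, 0; g * r, 0]], ?_, ?_⟩
  · ext i j
    fin_cases i <;> fin_cases j <;>
      simp [Fin.sum_univ_four, mul_apply, Matrix.sum_apply, cg, ce, cr, cs]
    · linear_combination h4 + r ^ 2 * h2 + h3 + r ^ 2 * h1
    · linear_combination h4 + s ^ 2 * h2 + h3 + s ^ 2 * h1
  · intro X
    ext i j
    rw [kraus_expand]
    fin_cases i <;> fin_cases j <;>
      simp [gadc, Fin.sum_univ_four, cg, ce, cr, cs, ← he]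
    · linear_combination -X 0 0 * (h4 + r ^ 2 * h2 + (1 - γ) * h3)
        - X 1 1 * (s ^ 2 * h1 + γ * h4)
    · left; linear_combination -(e * h4 + e * h3)
    · left; linear_combination -(e * h4 + e * h3)
    · linear_combination -X 1 1 * (s ^ 2 * h2 + (1 - γ) * h4 + h3)
        - X 0 0 * (r ^ 2 * h1 + γ * h3)

/-- `id ⊗ M`. -/
def idTen (M : Matrix c c ℂ → Matrix d d ℂ) (ρ : Matrix (Fin 2 × c) (Fin 2 × c) ℂ) :
    Matrix (Fin 2 × d) (Fin 2 × d) ℂ := fun p q => M (blk ρ p.1 q.1) p.2 q.2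

lemma blk_idTen (M : Matrix c c ℂ → Matrix d d ℂ) (ρ : Matrix (Fin 2 × c) (Fin 2 × c) ℂ)
    (i j : Fin 2) : blk (idTen M ρ) i j = M (blk ρ i j) := rfl

lemma Kraus.idTen_psd {M : Matrix c c ℂ → Matrix d d ℂ} (h : Kraus M)
    {ρ : Matrix (Fin 2 × c) (Fin 2 × c) ℂ} (hρ : ρ.PosSemidef) : (idTen M ρ).PosSemidef := by
  obtain ⟨E, _, K, -, h2⟩ := h
  have : idTen M ρ = ∑ e, ((1 : Matrix (Fin 2) (Fin 2) ℂ) ⊗ₖ K e) * ρ
      * ((1 : Matrix (Fin 2) (Fin 2) ℂ) ⊗ₖ K e)ᴴ := by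
    ext ⟨i, k⟩ ⟨j, l⟩
    rw [kraus_expand]
    simp only [idTen, h2, kraus_expand, Fintype.sum_prod_type, kroneckerMap_apply, one_apply, blk]
    fin_cases i <;> fin_cases j <;> simp
  rw [this]
  exact posSemidef_sum _ fun e _ => hρ.mul_mul_conjTranspose_same _

lemma con_eq {R : Type*} (v w : Fin 2 → ℂ) (σ : Matrix (Fin 2 × R) (Fin 2 × R) ℂ) :
    con v w σ = ∑ i, ∑ j, (v i * star (w j)) • blk σ i j := by
  ext k l; simp [con, blk, Matrix.sum_apply]

lemma con_idTen {M : Matrix c c ℂ → Matrix d d ℂ} (h : IsLinearMap ℂ M) (v w : Fin 2 → ℂ)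
    (ρ : Matrix (Fin 2 × c) (Fin 2 × c) ℂ) : con v w (idTen M ρ) = M (con v w ρ) := by
  rw [con_eq, con_eq, lin_sum h]
  refine Finset.sum_congr rfl fun i _ => ?_
  rw [lin_sum h]
  exact Finset.sum_congr rfl fun j _ => by rw [h.map_smul, blk_idTen]

lemma tensorMap_eq {N : Matrix (Fin 2) (Fin 2) ℂ → Matrix (Fin 2) (Fin 2) ℂ}
    {M : Matrix c c ℂ → Matrix d d ℂ} (hN : IsLinearMap ℂ N) (hM : IsLinearMap ℂ M)
    (ρ : Matrix (Fin 2 × c) (Fin 2 × c) ℂ) : tensorMap N M ρ = tenId N (idTen M ρ) := by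
  ext ⟨i, k⟩ ⟨j, l⟩
  simp only [tensorMap, tenId, idTen]
  refine Eq.trans ?_ (lin_expand hN (fun i j => M (blk ρ i j) k l) i j).symm
  simp only [fun i' j' => lin_expand hM (blk ρ i' j') k l, Fintype.sum_prod_type, Finset.mul_sum,
    blk]
  refine Finset.sum_congr rfl fun i' _ => ?_
  rw [Finset.sum_comm]
  refine Finset.sum_congr rfl fun j' _ => Finset.sum_congr rfl fun k' _ =>
    Finset.sum_congr rfl fun l' _ => by ring

lemma tensorMap_kronecker {N : Matrix a a ℂ → Matrix b b ℂ}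
    {M : Matrix c c ℂ → Matrix d d ℂ} (hN : IsLinearMap ℂ N) (hM : IsLinearMap ℂ M)
    (X : Matrix a a ℂ) (Y : Matrix c c ℂ) : tensorMap N M (X ⊗ₖ Y) = N X ⊗ₖ M Y := by
  ext ⟨i, k⟩ ⟨j, l⟩
  simp only [tensorMap, kroneckerMap_apply]
  rw [lin_expand hN, lin_expand hM]
  simp only [Fintype.sum_prod_type, Finset.mul_sum, Finset.sum_mul]
  rw [Finset.sum_comm]
  refine Finset.sum_congr rfl fun k' _ => ?_
  conv_rhs => rw [Finset.sum_comm]
  refine Finset.sum_congr rfl fun i' _ => ?_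
  rw [Finset.sum_comm]
  refine Finset.sum_congr rfl fun l' _ => Finset.sum_congr rfl fun j' _ => by ring

lemma vn_eq (ρ : Matrix a a ℂ) : vnEntropy ρ = S ρ / log 2 := by
  unfold vnEntropy S trf
  split_ifs <;> simp

lemma mem_holevoValues (N : Matrix a a ℂ → Matrix b b ℂ) {ι : Type*} [Fintype ι] (q : ι → ℝ)
    (ρ : ι → Matrix a a ℂ) (hq : ∀ i, 0 ≤ q i) (hs : ∑ i, q i = 1) (hρ : ∀ i, IsState (ρ i)) :
    (S (∑ i, (q i : ℂ) • N (ρ i)) - ∑ i, q i * S (N (ρ i))) / log 2 ∈ holevoValues N := by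
  set e := (Fintype.equivFin ι).symm
  refine ⟨_, q ∘ e, ρ ∘ e, fun i => hq _, by rw [← hs, ← e.sum_comp]; rfl, fun i => hρ _, ?_⟩
  simp only [vn_eq, Function.comp]
  rw [e.sum_comp (fun i => (q i : ℂ) • N (ρ i)),
    e.sum_comp (fun i => q i * (S (N (ρ i)) / log 2)), sub_div, Finset.sum_div]
  simp only [mul_div_assoc]

lemma holevoValues_elim {N : Matrix a a ℂ → Matrix b b ℂ} {x : ℝ} (h : x ∈ holevoValues N) :
    ∃ (k : ℕ) (q : Fin k → ℝ) (ρ : Fin k → Matrix a a ℂ), (∀ i, 0 ≤ q i) ∧ ∑ i, q i = 1 ∧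
      (∀ i, IsState (ρ i)) ∧
      x = (S (∑ i, (q i : ℂ) • N (ρ i)) - ∑ i, q i * S (N (ρ i))) / log 2 := by
  obtain ⟨k, q, ρ, h1, h2, h3, h4⟩ := h
  refine ⟨k, q, ρ, h1, h2, h3, ?_⟩
  rw [h4]
  simp only [vn_eq, sub_div, Finset.sum_div, mul_div_assoc]

lemma psd_real_smul {ι : Type*} {X : Matrix ι ι ℂ} (h : X.PosSemidef) {t : ℝ} (ht : 0 ≤ t) :
    ((t : ℂ) • X).PosSemidef := h.smul (by exact_mod_cast ht)

lemma Kraus.bddAbove {M : Matrix c c ℂ → Matrix d d ℂ} (h : Kraus M) :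
    BddAbove (holevoValues M) := by
  refine ⟨Fintype.card d / log 2, fun x hx => ?_⟩
  obtain ⟨k, q, ρ, h1, h2, h3, rfl⟩ := holevoValues_elim hx
  apply div_le_div_of_nonneg_right _ (log_pos one_lt_two).le
  have a1 := S_le_card (posSemidef_sum Finset.univ fun i _ => psd_real_smul (h.psd (h3 i).1) (h1 i))
  have a2 : 0 ≤ ∑ i, q i * S (M (ρ i)) := Finset.sum_nonneg fun i _ =>
    mul_nonneg (h1 i) (S_nonneg (h.psd (h3 i).1) (by rw [h.trace, (h3 i).2]))
  linarith

lemma exists_state [Nonempty c] : ∃ ρ : Matrix c c ℂ, IsState ρ := by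
  obtain ⟨i⟩ := ‹Nonempty c›
  refine ⟨diagonal (Pi.single i 1), PosSemidef.diagonal ?_, by simp [trace_diagonal]⟩
  intro j
  by_cases h : j = i
  · subst h; simp
  · simp [h]

lemma holevoValues_nonempty [Nonempty c] (M : Matrix c c ℂ → Matrix d d ℂ) :
    (holevoValues M).Nonempty := by
  obtain ⟨ρ, hρ⟩ := exists_state (c := c)
  exact ⟨_, mem_holevoValues M (fun _ : Unit => 1) (fun _ => ρ) (by simp) (by simp) fun _ => hρ⟩

lemma Sh_smul {X : Matrix a a ℂ} (h : X.IsHermitian) (t : ℝ) : Sh ((t : ℂ) • X) = t * Sh X := by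
  unfold Sh
  rw [S_smul h, trace_smul, smul_eq_mul, Complex.re_ofReal_mul, negMulLog_mul]; ring

lemma Kraus.unnormalized [Nonempty c] {M : Matrix c c ℂ → Matrix d d ℂ} (h : Kraus M)
    {ι : Type*} [Fintype ι] (τ : ι → Matrix c c ℂ) (hτ : ∀ i, (τ i).PosSemidef)
    (hs : ∑ i, (τ i).trace.re = 1) :
    (S (M (∑ i, τ i)) - ∑ i, Sh (M (τ i))) / log 2 ∈ holevoValues M := by
  obtain ⟨ρ0, hρ0⟩ := exists_state (c := c)
  have h1 : ∀ i, ∃ ρ : Matrix c c ℂ, IsState ρ ∧ τ i = ((τ i).trace.re : ℂ) • ρ := by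
    intro i
    rcases (trace_re_nonneg (hτ i)).eq_or_lt with h0 | hpos
    · refine ⟨ρ0, hρ0, ?_⟩
      simp [(hτ i).trace_eq_zero_iff.mp (by rw [trace_eq_re (hτ i).1, ← h0]; simp)]
    · have hne : ((τ i).trace.re : ℂ) ≠ 0 := by exact_mod_cast hpos.ne'
      refine ⟨(((τ i).trace.re⁻¹ : ℝ) : ℂ) • τ i, ⟨psd_real_smul (hτ i) (by positivity), ?_⟩, ?_⟩
      · rw [trace_smul, smul_eq_mul]
        conv_lhs => rw [trace_eq_re (hτ i).1]
        push_cast
        simp only [Complex.ofReal_re]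
        exact inv_mul_cancel₀ hne
      · rw [smul_smul]; push_cast; rw [mul_inv_cancel₀ hne, one_smul]
  choose ρ hρ hτρ using h1
  have := mem_holevoValues M (fun i => (τ i).trace.re) ρ (fun i => trace_re_nonneg (hτ i)) hs hρ
  have e1 : M (∑ i, τ i) = ∑ i, ((τ i).trace.re : ℂ) • M (ρ i) := by
    rw [lin_sum h.lin]
    exact Finset.sum_congr rfl fun i _ => by rw [← h.lin.map_smul, ← hτρ i]
  have e2 : ∀ i, Sh (M (τ i)) = (τ i).trace.re * S (M (ρ i)) := by
    intro i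
    conv_lhs => rw [hτρ i, h.lin.map_smul, Sh_smul (h.psd (hρ i).1).1]
    unfold Sh
    rw [h.trace, (hρ i).2]; simp
  rw [e1]
  simp only [e2]
  exact this

lemma holevoValues_reindex {N : Matrix a a ℂ → Matrix b b ℂ} {N' : Matrix c c ℂ → Matrix d d ℂ}
    (e : c ≃ a) (f : d ≃ b) (h : ∀ X, N' (X.submatrix e e) = (N X).submatrix f f) :
    holevoValues N' = holevoValues N := by
  have hst : ∀ X : Matrix a a ℂ, IsState (X.submatrix e e) ↔ IsState X := by
    intro X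
    unfold IsState
    rw [posSemidef_submatrix_equiv]
    have : (X.submatrix e e).trace = X.trace := by
      simp only [trace, diag_apply, submatrix_apply]; exact e.sum_comp (fun i => X i i)
    rw [this]
  have hval : ∀ (k : ℕ) (q : Fin k → ℝ) (ρ : Fin k → Matrix a a ℂ),
      (S (∑ i, (q i : ℂ) • N' ((ρ i).submatrix e e)) - ∑ i, q i * S (N' ((ρ i).submatrix e e)))
        = (S (∑ i, (q i : ℂ) • N (ρ i)) - ∑ i, q i * S (N (ρ i))) := by
    intro k q ρ
    simp only [h, S_submatrix]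
    congr 1
    rw [← S_submatrix f]
    congr 1
    ext i j; simp [Matrix.sum_apply]
  ext x
  constructor
  · intro hx
    obtain ⟨k, q, ρ, h1, h2, h3, rfl⟩ := holevoValues_elim hx
    have hρ : ∀ i, ρ i = ((ρ i).submatrix e.symm e.symm).submatrix e e := by
      intro i; simp
    have := mem_holevoValues N q (fun i => (ρ i).submatrix e.symm e.symm) h1 h2
      (fun i => (hst _).mp (hρ i ▸ h3 i))
    rw [← hval] at this
    simpa only [← hρ] using this
  · intro hx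
    obtain ⟨k, q, ρ, h1, h2, h3, rfl⟩ := holevoValues_elim hx
    rw [← hval]
    exact mem_holevoValues N' q _ h1 h2 (fun i => (hst _).mpr (h3 i))

end

end Vale.Agent.P358
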