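import Vale.Agent.P358.Scalar

/-! Convexity of the Wootters function `C ↦ E2 1 (C^2/4)` on `[0,1]`. -/

namespace Vale.Agent.P358

open Real Set

/-- Wootters function in nats. -/
noncomputable def Wo (C : ℝ) : ℝ := E2 1 (C ^ 2 / 4)

lemma Wo_eq (C : ℝ) : Wo C = binEntropy ((1 + √(1 - C ^ 2)) / 2) := by
  unfold Wo E2 lp lm
  rw [binEntropy_eq_negMulLog_add_negMulLog_one_sub,
    show (1 : ℝ) ^ 2 - 4 * (C ^ 2 / 4) = 1 - C ^ 2 by ring]
  congr 2; ring

lemma two_mul_le_log {x : ℝ} (h0 : 0 ≤ x) (h1 : x < 1) : 2 * x ≤ log (1 + x) - log (1 - x) := by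
  have hm : MonotoneOn (fun t : ℝ => log (1 + t) - log (1 - t) - 2 * t) (Icc 0 x) := by
    apply monotoneOn_of_hasDerivWithinAt_nonneg (convex_Icc 0 x)
      (f' := fun t => 1 / (1 + t) + 1 / (1 - t) - 2)
    · apply ContinuousOn.sub (ContinuousOn.sub _ _) (by fun_prop)
      · apply ContinuousOn.log (by fun_prop); intro t ht; linarith [ht.1]
      · apply ContinuousOn.log (by fun_prop); intro t ht; linarith [ht.2]
    · intro t ht
      rw [interior_Icc] at ht
      have a1 : (1 + t) ≠ 0 := by linarith [ht.1]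
      have a2 : (1 - t) ≠ 0 := by linarith [ht.2]
      have d1 : HasDerivAt (fun t : ℝ => log (1 + t)) (1 / (1 + t)) t :=
        ((hasDerivAt_id t).const_add 1).log a1
      have d2 : HasDerivAt (fun t : ℝ => log (1 - t)) (-1 / (1 - t)) t :=
        ((hasDerivAt_id t).const_sub 1).log a2
      have d3 : HasDerivAt (fun t : ℝ => 2 * t) 2 t := by
        simpa using (hasDerivAt_id t).const_mul 2
      have := (d1.sub d2).sub d3
      refine HasDerivAt.hasDerivWithinAt ?_
      refine HasDerivAt.congr_deriv this ?_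
      ring
    · intro t ht
      rw [interior_Icc] at ht
      have a1 : 0 < 1 + t := by linarith [ht.1]
      have a2 : 0 < 1 - t := by linarith [ht.2]
      have : 1 / (1 + t) + 1 / (1 - t) - 2 = 2 * t ^ 2 / ((1 + t) * (1 - t)) := by
        field_simp; ring
      rw [this]; positivity
  have := hm ⟨le_rfl, h0⟩ ⟨h0, le_rfl⟩ h0
  simp at this
  linarith

lemma Wo_convex : ConvexOn ℝ (Icc 0 1) Wo := by
  have hWo : Wo = fun C => binEntropy ((1 + √(1 - C ^ 2)) / 2) := funext Wo_eq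
  rw [hWo]
  have hx : ∀ C ∈ Ioo (0 : ℝ) 1, 0 < √(1 - C ^ 2) ∧ √(1 - C ^ 2) < 1 ∧
      HasDerivAt (fun C : ℝ => √(1 - C ^ 2)) (-C / √(1 - C ^ 2)) C := by
    intro C hC
    have h1 : 0 < 1 - C ^ 2 := by nlinarith [hC.1, hC.2]
    refine ⟨sqrt_pos.mpr h1, ?_, ?_⟩
    · rw [sqrt_lt' one_pos]; nlinarith [hC.1]
    · have d1 : HasDerivAt (fun C : ℝ => 1 - C ^ 2) (-(2 * C)) C := by
        simpa using ((hasDerivAt_id C).pow 2).const_sub 1
      convert d1.sqrt h1.ne' using 1
      have := (sqrt_pos.mpr h1).ne'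
      field_simp
  apply convexOn_of_hasDerivWithinAt2_nonneg (convex_Icc 0 1)
    (f' := fun C => C * (log (1 + √(1 - C ^ 2)) - log (1 - √(1 - C ^ 2))) / (2 * √(1 - C ^ 2)))
    (f'' := fun C => (log (1 + √(1 - C ^ 2)) - log (1 - √(1 - C ^ 2)) - 2 * √(1 - C ^ 2))
      / (2 * √(1 - C ^ 2) ^ 3))
  · fun_prop
  · intro C hC
    rw [interior_Icc] at hC
    obtain ⟨h0, h1, hd⟩ := hx C hC
    set x := √(1 - C ^ 2) with hxdef
    have d1 : HasDerivAt (fun C : ℝ => (1 + √(1 - C ^ 2)) / 2) (-C / x / 2) C :=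
      (hd.const_add 1).div_const 2
    have d2 := (hasDerivAt_binEntropy (p := (1 + x) / 2) (by linarith) (by linarith)).comp C d1
    refine HasDerivAt.hasDerivWithinAt ?_
    refine HasDerivAt.congr_deriv d2 ?_
    rw [show 1 - (1 + x) / 2 = (1 - x) / 2 by ring, log_div (by linarith) (by norm_num),
      log_div (by linarith) (by norm_num)]
    field_simp; ring
  · intro C hC
    rw [interior_Icc] at hC
    obtain ⟨h0, h1, hd⟩ := hx C hC
    set x := √(1 - C ^ 2) with hxdef
    have hsq : x ^ 2 = 1 - C ^ 2 := sq_sqrt (by nlinarith [hC.1, hC.2])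
    have d1 : HasDerivAt (fun C : ℝ => log (1 + √(1 - C ^ 2))) ((-C / x) / (1 + x)) C :=
      (hd.const_add 1).log (by linarith)
    have d2 : HasDerivAt (fun C : ℝ => log (1 - √(1 - C ^ 2))) (-(-C / x) / (1 - x)) C :=
      (hd.const_sub 1).log (by linarith)
    have d3 := ((hasDerivAt_id C).mul (d1.sub d2)).div (hd.const_mul 2) (by linarith)
    refine HasDerivAt.hasDerivWithinAt ?_
    refine HasDerivAt.congr_deriv d3 ?_
    have a1 : 1 + x ≠ 0 := by linarith
    have a2 : 1 - x ≠ 0 := by linarith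
    have a3 : x ≠ 0 := h0.ne'
    simp only [id, Pi.mul_apply, Pi.sub_apply, ← hxdef]
    have hC2 : C ^ 2 = (1 + x) * (1 - x) := by linarith
    field_simp
    rw [hC2]; ring
  · intro C hC
    rw [interior_Icc] at hC
    obtain ⟨h0, h1, -⟩ := hx C hC
    have := two_mul_le_log h0.le h1
    apply div_nonneg (by linarith) (by positivity)

lemma Wo_mono {C C' : ℝ} (h0 : 0 ≤ C) (h : C ≤ C') (h1 : C' ≤ 1) : Wo C ≤ Wo C' := by
  unfold Wo
  apply E2_mono zero_le_one (by positivity)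
  · gcongr
  · nlinarith

end Vale.Agent.P358
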