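import Vale.Agent.P358.RankTwo
import Vale.Agent.P358.Wootters
import Vale.Agent.P358.Defs

/-! The output entropy bound for the generalized amplitude-damping channel tensored with the
identity. -/

set_option linter.unusedSectionVars false

namespace Vale.Agent.P358

open Matrix Finset Real
open scoped ComplexOrder Kronecker

variable {R : Type*} [Fintype R] [DecidableEq R]

/-- `N ⊗ id`. -/
def tenId (N : Matrix (Fin 2) (Fin 2) ℂ → Matrix (Fin 2) (Fin 2) ℂ)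
    (σ : Matrix (Fin 2 × R) (Fin 2 × R) ℂ) : Matrix (Fin 2 × R) (Fin 2 × R) ℂ :=
  fun p q => N (fun i j => σ (i, p.2) (j, q.2)) p.1 q.1

/-- homogeneous entropy -/
noncomputable def Sh {n : Type*} [Fintype n] [DecidableEq n] (M : Matrix n n ℂ) : ℝ :=
  S M - negMulLog M.trace.re

/-- determinant of the output on a pure state of population `q` -/
noncomputable def dl (γ ν q : ℝ) : ℝ := γ * ((1 - γ) * (ν - q) ^ 2 + ν * (1 - ν))

/-- output entropy on a pure state of population `q` -/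
noncomputable def sfun (γ ν q : ℝ) : ℝ := E2 1 (dl γ ν q)

/-- reduced state on the qubit -/
noncomputable def marg (σ : Matrix (Fin 2 × R) (Fin 2 × R) ℂ) : Matrix (Fin 2) (Fin 2) ℂ :=
  fun i j => (blk σ i j).trace

lemma marg_psd {σ : Matrix (Fin 2 × R) (Fin 2 × R) ℂ} (h : σ.PosSemidef) :
    (marg σ).PosSemidef := by
  have : marg σ = ∑ k : R, σ.submatrix (fun i => (i, k)) (fun i => (i, k)) := by
    ext i j; simp [marg, blk, trace, Matrix.sum_apply]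
  rw [this]
  exact posSemidef_sum _ fun k _ => h.submatrix _

lemma trace_con (v w : Fin 2 → ℂ) (σ : Matrix (Fin 2 × R) (Fin 2 × R) ℂ) :
    (con v w σ).trace = qf (marg σ) (star v) (star w) := by
  simp only [trace, diag_apply, con, qf, marg, blk, dotProduct, mulVec, Fin.sum_univ_two,
    Finset.sum_add_distrib, ← Finset.mul_sum, star_star, Pi.star_apply]
  ring

lemma trace_marg (σ : Matrix (Fin 2 × R) (Fin 2 × R) ℂ) :
    σ.trace = marg σ 0 0 + marg σ 1 1 := by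
  simp [trace, Fintype.sum_prod_type, marg, blk]

lemma exists_phase (z : ℂ) : ∃ w : ℂ, w * star w = 1 ∧ star w ^ 2 * z = star z := by
  by_cases hz : z = 0
  · exact ⟨1, by simp, by simp [hz]⟩
  · have h1 : (‖z‖ : ℂ) ≠ 0 := by exact_mod_cast (norm_pos_iff.mpr hz).ne'
    have h2 : z * (starRingEnd ℂ) z = (‖z‖ : ℂ) ^ 2 := Complex.mul_conj' z
    refine ⟨z / ‖z‖, ?_, ?_⟩
    · simp only [star_div₀, Complex.star_def, Complex.conj_ofReal]
      field_simp; exact h2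
    · simp only [star_div₀, Complex.star_def, Complex.conj_ofReal]
      field_simp; linear_combination (starRingEnd ℂ) z * h2

/-- first Kraus operator of a half -/
noncomputable def LL1 (γ ν ε : ℝ) : Matrix (Fin 2) (Fin 2) ℂ :=
  !![(√(1 - ν) : ℝ) + ε * Complex.I * (√(1 - γ) : ℝ) * (√ν : ℝ), 0;
    0, (√(1 - γ) : ℝ) * (√(1 - ν) : ℝ) + ε * Complex.I * (√ν : ℝ)]

/-- second Kraus operator of a half -/
noncomputable def LL2 (γ ν ε : ℝ) (w : ℂ) : Matrix (Fin 2) (Fin 2) ℂ :=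
  !![0, (√γ : ℝ) * (√(1 - ν) : ℝ) * w; -(ε * Complex.I * (√γ : ℝ) * (√ν : ℝ) * star w), 0]

lemma sq_facts {γ ν : ℝ} (hγ : γ ∈ Set.Icc (0 : ℝ) 1) (hν : ν ∈ Set.Icc (0 : ℝ) 1) :
    ((√γ : ℝ) : ℂ) ^ 2 = γ ∧ ((√(1 - γ) : ℝ) : ℂ) ^ 2 = 1 - γ ∧ ((√ν : ℝ) : ℂ) ^ 2 = ν ∧
      ((√(1 - ν) : ℝ) : ℂ) ^ 2 = 1 - ν := by
  refine ⟨?_, ?_, ?_, ?_⟩
  · exact_mod_cast sq_sqrt hγ.1
  · exact_mod_cast sq_sqrt (sub_nonneg.mpr hγ.2)
  · exact_mod_cast sq_sqrt hν.1
  · exact_mod_cast sq_sqrt (sub_nonneg.mpr hν.2)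

lemma gadc_split {γ ν : ℝ} (hγ : γ ∈ Set.Icc (0 : ℝ) 1) (hν : ν ∈ Set.Icc (0 : ℝ) 1) {w : ℂ}
    (hw : w * star w = 1) (σ : Matrix (Fin 2 × R) (Fin 2 × R) ℂ) :
    tenId (gadc γ ν) σ = (1 / 2 : ℂ) • ((act (LL1 γ ν 1) σ + act (LL2 γ ν 1 w) σ)
      + (act (LL1 γ ν (-1)) σ + act (LL2 γ ν (-1) w) σ)) := by
  obtain ⟨h1, h2, h3, h4⟩ := sq_facts hγ hν
  have hI := Complex.I_mul_I
  ext ⟨i, k⟩ ⟨j, l⟩
  simp only [Complex.star_def] at hw
  set g : ℂ := ((√γ : ℝ) : ℂ)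
  set e : ℂ := ((√(1 - γ) : ℝ) : ℂ)
  set r : ℂ := ((√ν : ℝ) : ℂ)
  set s : ℂ := ((√(1 - ν) : ℝ) : ℂ)
  fin_cases i <;> fin_cases j <;>
    simp [tenId, gadc, act_apply, con, LL1, LL2]
  · linear_combination -σ (0, k) (0, l) * (h4 + r ^ 2 * h2 + (1 - γ) * h3 - e ^ 2 * r ^ 2 * hI)
      - σ (1, k) (1, l) * (g ^ 2 * s ^ 2 * hw + s ^ 2 * h1 + γ * h4)
  · linear_combination -σ (0, k) (1, l) * (e * h4 + e * h3 - e * r ^ 2 * hI)
  · linear_combination -σ (1, k) (0, l) * (e * h4 + e * h3 - e * r ^ 2 * hI)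
  · linear_combination -σ (1, k) (1, l) * (s ^ 2 * h2 + (1 - γ) * h4 + h3 - r ^ 2 * hI)
      - σ (0, k) (0, l) * (g ^ 2 * r ^ 2 * hw + r ^ 2 * h1 + γ * h3
        - g ^ 2 * r ^ 2 * w * (starRingEnd ℂ) w * hI)

lemma half_bound {γ ν ε : ℝ} (hγ : γ ∈ Set.Icc (0 : ℝ) 1) (hν : ν ∈ Set.Icc (0 : ℝ) 1)
    (hε : ε ^ 2 = 1) {σ : Matrix (Fin 2 × R) (Fin 2 × R) ℂ} (hσ : σ.PosSemidef)
    (ht : σ.trace = 1) {w : ℂ} (hw : w * star w = 1)
    (hwz : star w ^ 2 * marg σ 0 1 = star (marg σ 0 1)) :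
    ∃ m : Fin 3 → Fin 2 → ℂ, (∀ i j, ∑ e, m e i * star (m e j) = if i = j then 1 else 0) ∧
      sfun γ ν (marg σ 1 1).re + ∑ e, Sh (con (m e) (m e) σ)
        ≤ S (act (LL1 γ ν ε) σ + act (LL2 γ ν ε w) σ) := by
  obtain ⟨n, m1, m2, k1, k2, k3⟩ := rank_two (R := R) (LL1 γ ν ε) (LL2 γ ν ε w)
  obtain ⟨h1, h2, h3, h4⟩ := sq_facts hγ hν
  have hI := Complex.I_mul_I
  have hε' : (ε : ℂ) ^ 2 = 1 := by exact_mod_cast hε
  have hsum : ∀ i j, n i * star (n j) + m1 i * star (m1 j) + m2 i * star (m2 j)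
      = if i = j then 1 else 0 := by
    intro i j
    rw [k1]
    simp only [Complex.star_def] at hw
    set g : ℂ := ((√γ : ℝ) : ℂ)
    set e : ℂ := ((√(1 - γ) : ℝ) : ℂ)
    set r : ℂ := ((√ν : ℝ) : ℂ)
    set s : ℂ := ((√(1 - ν) : ℝ) : ℂ)
    fin_cases i <;> fin_cases j <;> simp [LL1, LL2]
    · linear_combination h4 + r ^ 2 * h2 + h3 + r ^ 2 * h1 + g ^ 2 * r ^ 2 * hw
        + (e ^ 2 * r ^ 2 + g ^ 2 * r ^ 2 * w * (starRingEnd ℂ) w) * hε'
        - ε ^ 2 * (e ^ 2 * r ^ 2 + g ^ 2 * r ^ 2 * w * (starRingEnd ℂ) w) * hI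
    · linear_combination h4 + s ^ 2 * h2 + h3 + s ^ 2 * h1 + g ^ 2 * s ^ 2 * hw
        + r ^ 2 * hε' - ε ^ 2 * r ^ 2 * hI
  refine ⟨![n, m1, m2], fun i j => by simpa [Fin.sum_univ_three] using hsum i j, ?_⟩
  have hρ := marg_psd hσ
  set ρ := marg σ with hρdef
  have h10 : ρ 1 0 = star (ρ 0 1) := (hρ.1.apply 1 0).symm
  have htr : ρ 0 0 + ρ 1 1 = 1 := by rw [← ht, trace_marg]
  have hc : ρ 1 1 = ((ρ 1 1).re : ℂ) := by
    have := hρ.1.apply 1 1
    exact (Complex.conj_eq_iff_re.mp this).symm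
  set c := (ρ 1 1).re with hcdef
  have ha : ρ 0 0 = 1 - c := by rw [← hc]; linear_combination htr
  set A := (con n n σ).trace.re with hA
  set Y := (con m1 m1 σ).trace.re with hY
  set Z := (con m2 m2 σ).trace.re with hZ
  have hA0 : 0 ≤ A := trace_re_nonneg (con_psd n hσ)
  have hY0 : 0 ≤ Y := trace_re_nonneg (con_psd m1 hσ)
  have hZ0 : 0 ≤ Z := trace_re_nonneg (con_psd m2 hσ)
  have hAYZ : A + Y + Z = 1 := by
    rw [hA, hY, hZ, ← Complex.add_re, ← Complex.add_re, trace_con, trace_con, trace_con,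
      ← hρdef]
    have : qf ρ (star n) (star n) + qf ρ (star m1) (star m1) + qf ρ (star m2) (star m2) = 1 := by
      simp only [qf, dotProduct, mulVec, Fin.sum_univ_two, star_star, Pi.star_apply]
      have a00 := hsum 0 0
      have a01 := hsum 0 1
      have a10 := hsum 1 0
      have a11 := hsum 1 1
      simp only [if_true, Fin.zero_eq_one_iff, Fin.one_eq_zero_iff, OfNat.ofNat_ne_one,
        if_false] at a00 a01 a10 a11
      linear_combination ρ 0 0 * a00 + ρ 0 1 * a01 + ρ 1 0 * a10 + ρ 1 1 * a11 + htr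
    rw [this]; simp
  have hdl : dl γ ν c ≤ Y * Z := by
    have cs := qf_cs hρ (star m1) ![m2 0, m2 1 * star w ^ 2]
    have q00 := k2 0 0
    have q01 := k2 0 1
    have q11 := k2 1 1
    have e1 : qf ρ ![m2 0, m2 1 * star w ^ 2] ![m2 0, m2 1 * star w ^ 2]
        = qf ρ (star m2) (star m2) := by
      have hwz' : w ^ 2 * star (ρ 0 1) = ρ 0 1 := by
        have := congrArg star hwz
        simpa using this
      simp only [qf, dotProduct, mulVec, Fin.sum_univ_two, star_star, Pi.star_apply, h10,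
        Matrix.cons_val_zero, Matrix.cons_val_one, star_mul', star_pow]
      linear_combination star (m2 0) * m2 1 * hwz + star (m2 1) * m2 0 * hwz'
        + star (m2 1) * m2 1 * ρ 1 1 * (w * star w + 1) * hw
    have e2 : qf ρ (star m1) ![m2 0, m2 1 * star w ^ 2]
        = star w * (((√γ * √(1 - γ) * (ν - c) : ℝ) : ℂ)
          + ((-(ε * √γ * √ν * √(1 - ν)) : ℝ) : ℂ) * Complex.I) := by
      simp only [qf, dotProduct, mulVec, Fin.sum_univ_two, star_star, Pi.star_apply, h10,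
        Matrix.cons_val_zero, Matrix.cons_val_one]
      rw [ha, hc]
      push_cast
      set g : ℂ := ((√γ : ℝ) : ℂ)
      set e : ℂ := ((√(1 - γ) : ℝ) : ℂ)
      set r : ℂ := ((√ν : ℝ) : ℂ)
      set s : ℂ := ((√(1 - ν) : ℝ) : ℂ)
      simp [LL1, LL2] at q00 q01 q11
      simp only [Complex.star_def] at hw hwz ⊢
      linear_combination (1 - c) / 2 * q00 + (starRingEnd ℂ) (ρ 0 1) * q01
        + c * (starRingEnd ℂ) w ^ 2 / 2 * q11 + m1 0 * m2 1 * hwz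
        - c * (starRingEnd ℂ) w * g * s * (e * s + ε * Complex.I * r) * hw
        + (starRingEnd ℂ) w * g * e * ((1 - c) * h3 - c * h4 + (1 - c) * r ^ 2 * hε'
          - (1 - c) * ε ^ 2 * r ^ 2 * hI)
    have hwn : ‖w‖ = 1 := by
      have := congrArg norm hw
      rw [norm_mul, norm_star, norm_one] at this
      nlinarith [norm_nonneg w]
    rw [e1, e2, norm_mul, norm_star, hwn, one_mul, ← Complex.normSq_eq_norm_sq,
      Complex.normSq_add_mul_I, ← trace_con, ← trace_con] at cs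
    refine le_trans (le_of_eq ?_) cs
    unfold dl
    have s1 := sq_sqrt hγ.1
    have s2 := sq_sqrt (sub_nonneg.mpr hγ.2)
    have s3 := sq_sqrt hν.1
    have s4 := sq_sqrt (sub_nonneg.mpr hν.2)
    rw [mul_pow, mul_pow, neg_sq, mul_pow, mul_pow, mul_pow, s1, s2, s3, s4, hε]
    ring
  have hdl0 : 0 ≤ dl γ ν c := by
    unfold dl
    have := hγ.1
    have := sub_nonneg.mpr hγ.2
    have := hν.1
    have := sub_nonneg.mpr hν.2
    positivity
  have hE : E2 1 (dl γ ν c) ≤ E2 1 (Y * Z) := by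
    apply E2_mono zero_le_one hdl0 hdl
    rw [← hAYZ]; exact four_mul_le hA0 hY0 hZ0
  have key := k3 σ hσ
  unfold phi at key
  rw [hAYZ] at key
  simp only [Fin.sum_univ_three, Matrix.cons_val_zero, Matrix.cons_val_one, Matrix.cons_val]
  unfold sfun Sh
  linarith

theorem core {γ ν : ℝ} (hγ : γ ∈ Set.Icc (0 : ℝ) 1) (hν : ν ∈ Set.Icc (0 : ℝ) 1)
    {σ : Matrix (Fin 2 × R) (Fin 2 × R) ℂ} (hσ : σ.PosSemidef) (ht : σ.trace = 1) :
    ∃ m : Fin 3 ⊕ Fin 3 → Fin 2 → ℂ,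
      (∀ i j, ∑ e, m e i * star (m e j) = if i = j then 2 else 0) ∧
      sfun γ ν (marg σ 1 1).re + (1 / 2) * ∑ e, Sh (con (m e) (m e) σ) ≤ S (tenId (gadc γ ν) σ) := by
  obtain ⟨w, hw, hwz⟩ := exists_phase (marg σ 0 1)
  obtain ⟨m, hm, h1⟩ := half_bound (ε := 1) hγ hν (by norm_num) hσ ht hw hwz
  obtain ⟨m', hm', h2⟩ := half_bound (ε := -1) hγ hν (by norm_num) hσ ht hw hwz
  refine ⟨Sum.elim m m', ?_, ?_⟩
  · intro i j
    rw [Fintype.sum_sum_type]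
    simp only [Sum.elim_inl, Sum.elim_inr, hm, hm']
    split_ifs <;> norm_num
  · rw [gadc_split hγ hν hw, Fintype.sum_sum_type]
    have := S_midpoint ((act_psd (LL1 γ ν 1) hσ).add (act_psd (LL2 γ ν 1 w) hσ))
      ((act_psd (LL1 γ ν (-1)) hσ).add (act_psd (LL2 γ ν (-1) w) hσ))
    simp only [Sum.elim_inl, Sum.elim_inr]
    linarith

end Vale.Agent.P358
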