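import Mathlib

/-! A determinant inequality coming from superadditivity of Schur pivots. -/

namespace Vale.Agent.P358

open Matrix Finset
open scoped ComplexOrder

/-- sesquilinear form of a matrix -/
noncomputable def qf {n : Type*} [Fintype n] (N : Matrix n n ℂ) (x y : n → ℂ) : ℂ :=
  star x ⬝ᵥ (N *ᵥ y)

section
variable {n : Type*} [Fintype n]

lemma qf_re_nonneg {N : Matrix n n ℂ} (hN : N.PosSemidef) (x : n → ℂ) : 0 ≤ (qf N x x).re :=
  hN.re_dotProduct_nonneg x

lemma qf_conj {N : Matrix n n ℂ} (hN : N.IsHermitian) (x y : n → ℂ) :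
    qf N y x = star (qf N x y) := by
  unfold qf
  rw [star_dotProduct, star_mulVec, hN.eq, ← dotProduct_mulVec]

lemma qf_add_left (N : Matrix n n ℂ) (x x' y : n → ℂ) :
    qf N (x + x') y = qf N x y + qf N x' y := by
  unfold qf; rw [star_add, add_dotProduct]

lemma qf_add_right (N : Matrix n n ℂ) (x y y' : n → ℂ) :
    qf N x (y + y') = qf N x y + qf N x y' := by
  unfold qf; rw [mulVec_add, dotProduct_add]

lemma qf_smul_left (N : Matrix n n ℂ) (c : ℂ) (x y : n → ℂ) :
    qf N (c • x) y = star c * qf N x y := by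
  unfold qf; rw [star_smul, smul_dotProduct, smul_eq_mul]

lemma qf_smul_right (N : Matrix n n ℂ) (c : ℂ) (x y : n → ℂ) :
    qf N x (c • y) = c * qf N x y := by
  unfold qf; rw [mulVec_smul, dotProduct_smul, smul_eq_mul]

lemma qf_add_mat (N M : Matrix n n ℂ) (x y : n → ℂ) :
    qf (N + M) x y = qf N x y + qf M x y := by
  unfold qf; rw [add_mulVec, dotProduct_add]

lemma qf_cs {N : Matrix n n ℂ} (hN : N.PosSemidef) (x y : n → ℂ) :
    ‖qf N x y‖ ^ 2 ≤ (qf N x x).re * (qf N y y).re := by
  set b := qf N x y with hb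
  have hbb : star b * b = ((‖b‖ ^ 2 : ℝ) : ℂ) := by
    rw [mul_comm]; simp [Complex.mul_conj, Complex.normSq_eq_norm_sq]
  have key : ∀ r : ℝ, 0 ≤ (‖b‖ ^ 2 * (qf N y y).re) * (r * r) + (2 * ‖b‖ ^ 2) * r
      + (qf N x x).re := by
    intro r
    have h := qf_re_nonneg hN (x + ((r : ℂ) * star b) • y)
    rw [qf_add_left, qf_add_right, qf_add_right, qf_smul_left, qf_smul_right, qf_smul_left,
      qf_smul_right, qf_conj hN.1 x y, ← hb] at h
    have e : qf N x x + ↑r * star b * b + (star (↑r * star b) * star b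
        + star (↑r * star b) * (↑r * star b * qf N y y))
        = qf N x x + ((2 * ‖b‖ ^ 2 * r : ℝ) : ℂ) + ((‖b‖ ^ 2 * (r * r) : ℝ) : ℂ) * qf N y y := by
      simp only [star_mul', Complex.star_def, Complex.conj_ofReal, Complex.conj_conj] at hbb ⊢
      push_cast at hbb ⊢
      linear_combination (2 * r + r * r * qf N y y) * hbb
    rw [e] at h
    simp only [Complex.add_re, Complex.ofReal_re, Complex.re_ofReal_mul] at h
    linarith
  have hd := discrim_le_zero key
  unfold discrim at hd
  rcases (sq_nonneg ‖b‖).eq_or_lt with h0 | hpos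
  · rw [← h0]; exact mul_nonneg (qf_re_nonneg hN x) (qf_re_nonneg hN y)
  · nlinarith

end

lemma det_re_pos {n : Type*} [Fintype n] [DecidableEq n] {P : Matrix n n ℂ} (hP : P.PosDef) :
    0 < P.det.re ∧ P.det = (P.det.re : ℂ) := by
  have h := hP.det_pos
  rw [Complex.lt_def] at h
  refine ⟨by simpa using h.1, ?_⟩
  apply Complex.ext <;> simp [← h.2]

lemma adj_col {n : ℕ} (M : Matrix (Fin (n + 1)) (Fin (n + 1)) ℂ) :
    M *ᵥ (fun i => adjugate M i 0) = M.det • Pi.single 0 1 ∧
      adjugate M 0 0 = (M.submatrix Fin.succ Fin.succ).det := by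
  constructor
  · ext i
    have := congrFun (congrFun (mul_adjugate M) i) 0
    simp only [mul_apply, Matrix.smul_apply, one_apply] at this
    simp only [mulVec, dotProduct, Pi.smul_apply, Pi.single_apply]
    exact this
  · rw [adjugate_fin_succ_eq_det_submatrix]; simp

lemma pivot_le {n : ℕ} {P : Matrix (Fin (n + 1)) (Fin (n + 1)) ℂ} (hP : P.PosDef)
    (x : Fin (n + 1) → ℂ) :
    ‖x 0‖ ^ 2 * P.det.re ≤ (P.submatrix Fin.succ Fin.succ).det.re * (qf P x x).re := by
  obtain ⟨h1, h2⟩ := adj_col P
  set z : Fin (n + 1) → ℂ := fun i => adjugate P i 0 with hz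
  obtain ⟨hd, hd'⟩ := det_re_pos hP
  obtain ⟨hs, hs'⟩ := det_re_pos (hP.submatrix (Fin.succ_injective n))
  have e1 : qf P x z = P.det * star (x 0) := by
    unfold qf; rw [h1]; simp
  have e2 : (qf P z z).re = P.det.re * (P.submatrix Fin.succ Fin.succ).det.re := by
    unfold qf; rw [h1]
    have : z 0 = (P.submatrix Fin.succ Fin.succ).det := h2
    simp only [dotProduct_smul, dotProduct_single, Pi.star_apply, mul_one, smul_eq_mul, this]
    rw [hd', hs']; simp
  have cs := qf_cs hP.posSemidef x z
  rw [e1, e2, norm_mul, norm_star, hd'] at cs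
  simp only [Complex.norm_real, Complex.ofReal_re, Real.norm_eq_abs, abs_of_pos hd] at cs
  nlinarith

lemma det_ineq_fin : ∀ (n : ℕ) (P H : Matrix (Fin n) (Fin n) ℂ) (r : Fin n → ℝ), P.PosDef →
    H.PosSemidef → (∀ k, 0 ≤ r k) → (∀ x k, r k * ‖x k‖ ^ 2 ≤ (qf H x x).re) →
    P.det.re * ∏ k, (1 + r k / (P k k).re) ≤ (P + H).det.re := by
  intro n
  induction n with
  | zero => intro P H r _ _ _ _; simp
  | succ n ih =>
    intro P H r hP hH hr hx
    have hP' := hP.submatrix (Fin.succ_injective n)
    have hH' := hH.submatrix (Fin.succ : Fin n → Fin (n + 1))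
    have ih' := ih _ _ (fun k => r k.succ) hP' hH' (fun k => hr _) (by
      intro x k
      have := hx (Fin.cons 0 x) k.succ
      have e : qf H (Fin.cons 0 x) (Fin.cons 0 x) = qf (H.submatrix Fin.succ Fin.succ) x x := by
        unfold qf
        simp [dotProduct, mulVec, Fin.sum_univ_succ]
      rw [e] at this
      simpa using this)
    set M := P + H with hM
    have hMpd : M.PosDef := hP.add_posSemidef hH
    have hsub : P.submatrix Fin.succ Fin.succ + H.submatrix Fin.succ Fin.succ
        = M.submatrix Fin.succ Fin.succ := rfl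
    rw [hsub] at ih'
    obtain ⟨h1, h2⟩ := adj_col M
    set z : Fin (n + 1) → ℂ := fun i => adjugate M i 0 with hz
    obtain ⟨hd, hd'⟩ := det_re_pos hMpd
    obtain ⟨hs, hs'⟩ := det_re_pos (hMpd.submatrix (Fin.succ_injective n))
    obtain ⟨hpd, -⟩ := det_re_pos hP
    obtain ⟨hps, -⟩ := det_re_pos hP'
    have hz0 : z 0 = (M.submatrix Fin.succ Fin.succ).det := h2
    have e2 : (qf M z z).re = M.det.re * (M.submatrix Fin.succ Fin.succ).det.re := by
      unfold qf; rw [h1]
      simp only [dotProduct_smul, dotProduct_single, Pi.star_apply, mul_one, smul_eq_mul, hz0]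
      rw [hd', hs']; simp
    have e3 : ‖z 0‖ = (M.submatrix Fin.succ Fin.succ).det.re := by
      rw [hz0, hs']; simp [abs_of_pos hs]
    have h3 := pivot_le hP z
    have h4 := hx z 0
    have h5 : (qf M z z).re = (qf P z z).re + (qf H z z).re := by
      rw [hM, qf_add_mat, Complex.add_re]
    have h6 := pivot_le hP (Pi.single 0 1)
    have e6 : qf P (Pi.single 0 1) (Pi.single 0 1) = P 0 0 := by
      unfold qf; simp
    rw [e6] at h6
    simp only [Pi.single_eq_same, norm_one, one_pow, one_mul] at h6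
    have hP00 : 0 < (P 0 0).re := by
      have := hP.diag_pos (i := 0)
      rw [Complex.lt_def] at this; simpa using this.1
    rw [e3] at h3 h4
    set m := M.det.re
    set m' := (M.submatrix Fin.succ Fin.succ).det.re
    set p := P.det.re
    set p' := (P.submatrix Fin.succ Fin.succ).det.re
    set T := ∏ k : Fin n, (1 + r k.succ / (P k.succ k.succ).re) with hT
    have hT' : p' * T ≤ m' := ih'
    rw [Fin.prod_univ_succ, ← hT]
    have h7 : m' * (p + p' * r 0) ≤ p' * m := by
      have : m' * (m' * (p + p' * r 0)) ≤ m' * (p' * m) := by nlinarith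
      exact le_of_mul_le_mul_left this hs
    have h8 : p * (1 + r 0 / (P 0 0).re) ≤ p + p' * r 0 := by
      have : p * (r 0 / (P 0 0).re) ≤ p' * r 0 := by
        rw [← mul_div_assoc, div_le_iff₀ hP00]
        nlinarith [hr 0]
      linarith
    have h9 : 0 ≤ p * (1 + r 0 / (P 0 0).re) := by have := hr 0; positivity
    have h10 : p' * (p * ((1 + r 0 / (P 0 0).re) * T)) ≤ p' * m := by
      calc p' * (p * ((1 + r 0 / (P 0 0).re) * T)) = (p' * T) * (p * (1 + r 0 / (P 0 0).re)) := by
            ring
        _ ≤ m' * (p + p' * r 0) := mul_le_mul hT' h8 h9 hs.le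
        _ ≤ p' * m := h7
    exact le_of_mul_le_mul_left h10 hps

theorem det_ineq {n : Type*} [Fintype n] [DecidableEq n] (P H : Matrix n n ℂ) (r : n → ℝ)
    (hP : P.PosDef) (hH : H.PosSemidef) (hr : ∀ k, 0 ≤ r k)
    (hx : ∀ x k, r k * ‖x k‖ ^ 2 ≤ (qf H x x).re) :
    P.det.re * ∏ k, (1 + r k / (P k k).re) ≤ (P + H).det.re := by
  set e := (Fintype.equivFin n).symm
  have := det_ineq_fin _ (P.submatrix e e) (H.submatrix e e) (fun k => r (e k))
    (hP.submatrix e.injective) (hH.submatrix e) (fun k => hr _) (by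
      intro x k
      have h := hx (fun i => x (e.symm i)) (e k)
      have e1 : qf H (fun i => x (e.symm i)) (fun i => x (e.symm i))
          = qf (H.submatrix e e) x x := by
        unfold qf
        simp only [dotProduct, mulVec, submatrix_apply, Pi.star_apply]
        rw [← e.sum_comp]
        refine Finset.sum_congr rfl fun i _ => ?_
        rw [← e.sum_comp]
        simp
      rw [e1] at h
      simpa using h)
  rw [show P.submatrix e e + H.submatrix e e = (P + H).submatrix e e from rfl,
    det_submatrix_equiv_self, det_submatrix_equiv_self] at this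
  rw [← e.prod_comp]
  simpa using this

end Vale.Agent.P358
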