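import Vale.Agent.P358.Scalar
import Vale.Agent.P358.Det

/-! Basic facts on the (unnormalised, natural-log) entropy of Hermitian matrices. -/

set_option linter.unusedSectionVars false

namespace Vale.Agent.P358

open Matrix Finset Real
open scoped ComplexOrder Kronecker

/-- spectral sum `tr f(M)`. -/
noncomputable def trf {n : Type*} [Fintype n] [DecidableEq n] (M : Matrix n n ℂ) (f : ℝ → ℝ) : ℝ :=
  open Classical in
  if h : M.IsHermitian then ∑ i, f (h.eigenvalues i) else 0

/-- entropy in nats. -/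
noncomputable def S {n : Type*} [Fintype n] [DecidableEq n] (M : Matrix n n ℂ) : ℝ :=
  trf M negMulLog

section
variable {n m : Type*} [Fintype n] [DecidableEq n] [Fintype m] [DecidableEq m]

lemma trf_eq {M : Matrix n n ℂ} (h : M.IsHermitian) (f : ℝ → ℝ) :
    trf M f = ∑ i, f (h.eigenvalues i) := by
  unfold trf; rw [dif_pos h]

open Polynomial in
lemma trf_of_charpoly {M : Matrix n n ℂ} (h : M.IsHermitian) {ι : Type*} [Fintype ι] (d : ι → ℝ)
    (hd : M.charpoly = ∏ i, (X - C (d i : ℂ))) (f : ℝ → ℝ) : trf M f = ∑ i, f (d i) := by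
  rw [trf_eq h]
  have h1 := h.roots_charpoly_eq_eigenvalues
  have h2 : M.charpoly.roots = Multiset.map (fun i => (d i : ℂ)) Finset.univ.val := by
    rw [hd, Finset.prod_eq_multiset_prod]
    have := roots_multiset_prod_X_sub_C (Multiset.map (fun i => (d i : ℂ)) Finset.univ.val)
    rw [Multiset.map_map] at this
    exact this
  rw [h1] at h2
  have h3 := congrArg (fun s : Multiset ℂ => (s.map (fun z => f z.re)).sum) h2
  simp only [Multiset.map_map] at h3
  rw [Finset.sum_eq_multiset_sum, Finset.sum_eq_multiset_sum]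
  exact h3

lemma trf_congr_charpoly {M : Matrix n n ℂ} {N : Matrix m m ℂ} (hM : M.IsHermitian)
    (hN : N.IsHermitian) (h : M.charpoly = N.charpoly) (f : ℝ → ℝ) : trf M f = trf N f := by
  rw [trf_of_charpoly hM hN.eigenvalues (h.trans hN.charpoly_eq), trf_eq hN]

lemma trf_conj {M U : Matrix n n ℂ} (hM : M.IsHermitian) (hU : Uᴴ * U = 1) (f : ℝ → ℝ) :
    trf (U * M * Uᴴ) f = trf M f := by
  apply trf_congr_charpoly (isHermitian_mul_mul_conjTranspose U hM) hM
  rw [charpoly_mul_comm, ← Matrix.mul_assoc, hU, Matrix.one_mul]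

lemma trf_submatrix {M : Matrix n n ℂ} (e : m ≃ n) (f : ℝ → ℝ) :
    trf (M.submatrix e e) f = trf M f := by
  by_cases hM : M.IsHermitian
  · apply trf_congr_charpoly (hM.submatrix e) hM
    exact charpoly_reindex e.symm M
  · have : ¬ (M.submatrix e e).IsHermitian := by
      rwa [isHermitian_submatrix_equiv]
    unfold trf; rw [dif_neg hM, dif_neg this]

lemma trf_diagonal (d : n → ℝ) (f : ℝ → ℝ) :
    trf (diagonal (fun i => (d i : ℂ))) f = ∑ i, f (d i) := by
  apply trf_of_charpoly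
  · rw [isHermitian_diagonal_iff]; intro i; simp [IsSelfAdjoint]
  · rw [charpoly_diagonal]

lemma isHermitian_diag_real (d : n → ℝ) : (diagonal (fun i => (d i : ℂ))).IsHermitian := by
  rw [isHermitian_diagonal_iff]; intro i; simp [IsSelfAdjoint]

lemma spectral {M : Matrix n n ℂ} (h : M.IsHermitian) :
    ∃ U : Matrix n n ℂ, Uᴴ * U = 1 ∧ U * Uᴴ = 1 ∧
      M = U * diagonal (fun i => (h.eigenvalues i : ℂ)) * Uᴴ ∧
      Uᴴ * M * U = diagonal (fun i => (h.eigenvalues i : ℂ)) := by
  have h1 : (h.eigenvectorUnitary : Matrix n n ℂ)ᴴ * h.eigenvectorUnitary = 1 :=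
    Unitary.coe_star_mul_self _
  have h2 : (h.eigenvectorUnitary : Matrix n n ℂ) * (h.eigenvectorUnitary : Matrix n n ℂ)ᴴ = 1 :=
    Unitary.coe_mul_star_self _
  have h3 : M = (h.eigenvectorUnitary : Matrix n n ℂ) * diagonal (fun i => (h.eigenvalues i : ℂ))
      * (h.eigenvectorUnitary : Matrix n n ℂ)ᴴ := by
    conv_lhs => rw [h.spectral_theorem]
    rfl
  refine ⟨_, h1, h2, h3, ?_⟩
  generalize (h.eigenvectorUnitary : Matrix n n ℂ) = U at h1 h2 h3 ⊢
  generalize diagonal (fun i => (h.eigenvalues i : ℂ)) = D at h3 ⊢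
  rw [h3]
  simp only [← Matrix.mul_assoc, h1, Matrix.one_mul]
  rw [Matrix.mul_assoc, h1, Matrix.mul_one]

lemma trf_mem_ev {M : Matrix n n ℂ} (h : M.PosSemidef) : (fun f => trf M f) ∈ Ev := by
  simp only [trf_eq h.1]
  exact ev_sum fun i => ev_point (h.eigenvalues_nonneg i)

lemma trf_one {M : Matrix n n ℂ} (h : M.IsHermitian) : trf M (fun _ => 1) = Fintype.card n := by
  simp [trf_eq h]

lemma trf_id {M : Matrix n n ℂ} (h : M.IsHermitian) : trf M (fun x => x) = M.trace.re := by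
  rw [trf_eq h, h.trace_eq_sum_eigenvalues]; simp

lemma trf_log {M : Matrix n n ℂ} (h : M.PosSemidef) {u : ℝ} (hu : 0 < u) :
    trf M (fun x => log (u + x)) = log (((u : ℂ) • (1 : Matrix n n ℂ) + M).det.re) := by
  obtain ⟨U, h1, h2, h3, -⟩ := spectral h.1
  have e : (u : ℂ) • (1 : Matrix n n ℂ) + M
      = U * diagonal (fun i => ((u + h.1.eigenvalues i : ℝ) : ℂ)) * Uᴴ := by
    have : diagonal (fun i => ((u + h.1.eigenvalues i : ℝ) : ℂ))
        = (u : ℂ) • (1 : Matrix n n ℂ) + diagonal (fun i => (h.1.eigenvalues i : ℂ)) := by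
      ext i j; by_cases hij : i = j <;> simp [hij]
    rw [this, Matrix.mul_add, Matrix.add_mul, ← h3, Matrix.mul_smul, Matrix.mul_one,
      Matrix.smul_mul, h2]
  rw [e, det_mul, det_mul, mul_comm U.det, mul_assoc, ← det_mul, h2, det_one, mul_one,
    det_diagonal, ← Complex.ofReal_prod, Complex.ofReal_re, trf_eq h.1, log_prod]
  intro i _
  have := h.eigenvalues_nonneg i
  positivity

lemma S_conj {M U : Matrix n n ℂ} (hM : M.IsHermitian) (hU : Uᴴ * U = 1) :
    S (U * M * Uᴴ) = S M := trf_conj hM hU _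

lemma S_conj' {M U : Matrix n n ℂ} (hM : M.IsHermitian) (hU : U * Uᴴ = 1) :
    S (Uᴴ * M * U) = S M := by
  have := S_conj (U := Uᴴ) hM (by simpa using hU)
  simpa using this

lemma S_submatrix {M : Matrix n n ℂ} (e : m ≃ n) : S (M.submatrix e e) = S M := trf_submatrix e _

lemma diag_re_nonneg {ι : Type*} {M : Matrix ι ι ℂ} (h : M.PosSemidef) (k : ι) : 0 ≤ (M k k).re := by
  have := h.diag_nonneg (i := k)
  rw [Complex.le_def] at this; simpa using this.1

lemma trace_re_nonneg {M : Matrix n n ℂ} (h : M.PosSemidef) : 0 ≤ M.trace.re := by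
  have := h.trace_nonneg
  rw [Complex.le_def] at this; simpa using this.1

lemma trace_eq_re {M : Matrix n n ℂ} (h : M.IsHermitian) : M.trace = (M.trace.re : ℂ) := by
  rw [h.trace_eq_sum_eigenvalues]; simp

lemma S_smul {M : Matrix n n ℂ} (h : M.IsHermitian) (c : ℝ) :
    S ((c : ℂ) • M) = c * S M + negMulLog c * M.trace.re := by
  obtain ⟨U, h1, h2, h3, -⟩ := spectral h
  have e : (c : ℂ) • M = U * diagonal (fun i => ((c * h.eigenvalues i : ℝ) : ℂ)) * Uᴴ := by
    have : diagonal (fun i => ((c * h.eigenvalues i : ℝ) : ℂ))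
        = (c : ℂ) • diagonal (fun i => (h.eigenvalues i : ℂ)) := by
      ext i j; by_cases hij : i = j <;> simp [hij]
    rw [this, Matrix.mul_smul, Matrix.smul_mul, ← h3]
  rw [e, S_conj (isHermitian_diag_real _) h1, ← trf_id h]
  unfold S
  rw [trf_diagonal, trf_eq h, trf_eq h, Finset.mul_sum, Finset.mul_sum, ← Finset.sum_add_distrib]
  exact Finset.sum_congr rfl fun i _ => by rw [negMulLog_mul]; ring

lemma S_kronecker {M : Matrix n n ℂ} {N : Matrix m m ℂ} (hM : M.IsHermitian) (hN : N.IsHermitian) :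
    S (M ⊗ₖ N) = N.trace.re * S M + M.trace.re * S N := by
  obtain ⟨U, h1, -, h3, -⟩ := spectral hM
  obtain ⟨V, k1, -, k3, -⟩ := spectral hN
  have e : M ⊗ₖ N = (U ⊗ₖ V) * diagonal (fun p : n × m =>
      ((hM.eigenvalues p.1 * hN.eigenvalues p.2 : ℝ) : ℂ)) * (U ⊗ₖ V)ᴴ := by
    conv_lhs => rw [h3, k3]
    rw [mul_kronecker_mul, mul_kronecker_mul, diagonal_kronecker_diagonal,
      conjTranspose_kronecker]
    simp
  have hUV : (U ⊗ₖ V)ᴴ * (U ⊗ₖ V) = 1 := by
    rw [conjTranspose_kronecker, ← mul_kronecker_mul, h1, k1, one_kronecker_one]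
  rw [e, S_conj (isHermitian_diag_real _) hUV, ← trf_id hM, ← trf_id hN]
  unfold S
  rw [trf_diagonal, trf_eq hM, trf_eq hM, trf_eq hN, trf_eq hN, Fintype.sum_prod_type,
    Finset.sum_mul_sum, Finset.sum_mul_sum, Finset.sum_comm (s := (Finset.univ : Finset m)),
    ← Finset.sum_add_distrib]
  refine Finset.sum_congr rfl fun i _ => ?_
  rw [← Finset.sum_add_distrib]
  exact Finset.sum_congr rfl fun j _ => by rw [negMulLog_mul]

/-- pinching inequality -/
lemma S_le_diag {M : Matrix n n ℂ} (h : M.PosSemidef) : S M ≤ ∑ k, negMulLog (M k k).re := by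
  obtain ⟨U, h1, h2, h3, -⟩ := spectral h.1
  have hrow : ∀ k, ∑ j, ‖U k j‖ ^ 2 = 1 := by
    intro k
    have := congrArg Complex.re (congrFun (congrFun h2 k) k)
    simpa [mul_apply, Complex.mul_conj, Complex.normSq_eq_norm_sq, ← Complex.ofReal_pow] using this
  have hcol : ∀ j, ∑ k, ‖U k j‖ ^ 2 = 1 := by
    intro j
    have := congrArg Complex.re (congrFun (congrFun h1 j) j)
    simpa [mul_apply, Complex.conj_mul', ← Complex.ofReal_pow] using this
  have hM : ∀ k, (M k k).re = ∑ j, ‖U k j‖ ^ 2 * h.1.eigenvalues j := by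
    intro k
    conv_lhs => rw [h3]
    rw [mul_apply, Complex.re_sum]
    refine Finset.sum_congr rfl fun j _ => ?_
    rw [mul_diagonal, conjTranspose_apply, mul_right_comm]
    simp [Complex.mul_conj, Complex.normSq_eq_norm_sq, ← Complex.ofReal_pow]
  have hJ : ∀ k, ∑ j, ‖U k j‖ ^ 2 * negMulLog (h.1.eigenvalues j) ≤ negMulLog (M k k).re := by
    intro k
    rw [hM k]
    have := concaveOn_negMulLog.le_map_sum (t := Finset.univ) (w := fun j => ‖U k j‖ ^ 2)
      (p := fun j => h.1.eigenvalues j) (fun j _ => by positivity) (hrow k)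
      (fun j _ => h.eigenvalues_nonneg j)
    simpa using this
  calc S M = ∑ j, (∑ k, ‖U k j‖ ^ 2) * negMulLog (h.1.eigenvalues j) := by
        unfold S; rw [trf_eq h.1]; simp [hcol]
    _ = ∑ k, ∑ j, ‖U k j‖ ^ 2 * negMulLog (h.1.eigenvalues j) := by
        rw [Finset.sum_comm]; simp [Finset.sum_mul]
    _ ≤ _ := Finset.sum_le_sum fun k _ => hJ k

/-- midpoint concavity -/
lemma S_midpoint {M N : Matrix n n ℂ} (hM : M.PosSemidef) (hN : N.PosSemidef) :
    (S M + S N) / 2 ≤ S ((1 / 2 : ℂ) • (M + N)) := by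
  have hh : ((1 / 2 : ℂ) • (M + N)).IsHermitian := by
    have : (1 / 2 : ℂ) = ((1 / 2 : ℝ) : ℂ) := by simp
    rw [this]
    exact (hM.1.add hN.1).smul (by simp [IsSelfAdjoint])
  obtain ⟨U, h1, h2, -, h4⟩ := spectral hh
  have hM' := hM.conjTranspose_mul_mul_same U
  have hN' := hN.conjTranspose_mul_mul_same U
  have e : ∀ k, hh.eigenvalues k = (1 / 2) * ((Uᴴ * M * U) k k).re + (1 / 2) * ((Uᴴ * N * U) k k).re := by
    intro k
    have := congrArg Complex.re (congrFun (congrFun h4 k) k)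
    rw [Matrix.mul_smul, Matrix.smul_mul, Matrix.mul_add, Matrix.add_mul] at this
    simp only [diagonal_apply_eq, Complex.ofReal_re, Matrix.smul_apply, Matrix.add_apply,
      smul_eq_mul] at this
    rw [← this]; simp; ring
  rw [← S_conj' hM.1 h2, ← S_conj' hN.1 h2]
  have a1 := S_le_diag hM'
  have a2 := S_le_diag hN'
  have a3 : ∑ k, ((1 / 2) * negMulLog ((Uᴴ * M * U) k k).re + (1 / 2) * negMulLog ((Uᴴ * N * U) k k).re)
      ≤ S ((1 / 2 : ℂ) • (M + N)) := by
    unfold S
    rw [trf_eq hh]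
    refine Finset.sum_le_sum fun k _ => ?_
    rw [e k]
    exact concaveOn_negMulLog.2 (diag_re_nonneg hM' k) (diag_re_nonneg hN' k) (by norm_num)
      (by norm_num) (by norm_num)
  rw [Finset.sum_add_distrib, ← Finset.mul_sum, ← Finset.mul_sum] at a3
  linarith

lemma S_le_card {M : Matrix n n ℂ} (h : M.PosSemidef) : S M ≤ Fintype.card n := by
  unfold S
  rw [trf_eq h.1]
  calc ∑ i, negMulLog (h.1.eigenvalues i) ≤ ∑ _i : n, (1 : ℝ) := Finset.sum_le_sum fun i _ => by
        have := negMulLog_le_one_sub_self (h.eigenvalues_nonneg i)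
        linarith [h.eigenvalues_nonneg i]
    _ = _ := by simp

lemma S_nonneg {M : Matrix n n ℂ} (h : M.PosSemidef) (ht : M.trace = 1) : 0 ≤ S M := by
  unfold S
  rw [trf_eq h.1]
  have hs : ∑ i, h.1.eigenvalues i = 1 := by
    have := trf_id h.1
    rw [trf_eq h.1, ht] at this; simpa using this
  refine Finset.sum_nonneg fun i _ => negMulLog_nonneg (h.eigenvalues_nonneg i) ?_
  rw [← hs]
  exact Finset.single_le_sum (fun j _ => h.eigenvalues_nonneg j) (Finset.mem_univ i)

end

open Polynomial in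
lemma S_two {M : Matrix (Fin 2) (Fin 2) ℂ} (h : M.IsHermitian) {s p : ℝ} (hs : M.trace = s)
    (hp : M.det = p) (h4 : 4 * p ≤ s ^ 2) : S M = E2 s p := by
  unfold S E2
  rw [trf_of_charpoly h ![lp s p, lm s p]]
  · simp
  · rw [charpoly_fin_two, hs, hp, Fin.prod_univ_two]
    have h1 : (s : ℂ) = (lp s p : ℂ) + (lm s p : ℂ) := by exact_mod_cast (lp_add_lm s p).symm
    have h2 : (p : ℂ) = (lp s p : ℂ) * (lm s p : ℂ) := by exact_mod_cast (lp_mul_lm h4).symm
    conv_lhs => rw [h1, h2]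
    simp only [Matrix.cons_val_zero, Matrix.cons_val_one, C_add, C_mul]
    ring

end Vale.Agent.P358
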