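import Vale.Agent.P358.Channel

/-! Additivity of the Holevo capacity of the generalized amplitude-damping channel. -/

set_option linter.unusedSectionVars false

namespace Vale.Agent.P358

open Matrix Finset Real
open scoped ComplexOrder Kronecker

lemma dl_eq (γ ν q : ℝ) : dl γ ν q = ((1 - γ) * q + γ * ν) * (1 - ((1 - γ) * q + γ * ν))
    - (1 - γ) * q * (1 - q) := by unfold dl; ring

lemma dl_nonneg {γ ν : ℝ} (hγ : γ ∈ Set.Icc (0 : ℝ) 1) (hν : ν ∈ Set.Icc (0 : ℝ) 1) (q : ℝ) :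
    0 ≤ dl γ ν q := by
  unfold dl
  have := hγ.1
  have := sub_nonneg.mpr hγ.2
  have := hν.1
  have := sub_nonneg.mpr hν.2
  positivity

lemma dl_le {γ ν q : ℝ} (hγ : γ ∈ Set.Icc (0 : ℝ) 1) (hq : q ∈ Set.Icc (0 : ℝ) 1) :
    4 * dl γ ν q ≤ 1 := by
  rw [dl_eq]
  have : 0 ≤ (1 - γ) * q * (1 - q) :=
    mul_nonneg (mul_nonneg (sub_nonneg.mpr hγ.2) hq.1) (sub_nonneg.mpr hq.2)
  nlinarith [sq_nonneg (1 - 2 * ((1 - γ) * q + γ * ν))]

lemma capFun_eq (γ ν q : ℝ) : capFun γ ν q = (negMulLog (1 - ((1 - γ) * q + γ * ν))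
    + negMulLog ((1 - γ) * q + γ * ν) - sfun γ ν q) / log 2 := by
  unfold capFun h2 sfun E2 lp lm
  rw [binEntropy_eq_negMulLog_add_negMulLog_one_sub, binEntropy_eq_negMulLog_add_negMulLog_one_sub,
    show (1 : ℝ) ^ 2 - 4 * dl γ ν q
      = (1 - 2 * ((1 - γ) * q + γ * ν)) ^ 2 + 4 * (1 - γ) * q * (1 - q) by rw [dl_eq]; ring]
  rw [show ∀ x : ℝ, 1 - (1 + x) / 2 = (1 - x) / 2 from fun x => by ring]
  ring

lemma sfun_jensen {γ ν : ℝ} (hγ : γ ∈ Set.Icc (0 : ℝ) 1) (hν : ν ∈ Set.Icc (0 : ℝ) 1)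
    {ι : Type*} [Fintype ι] (q c : ι → ℝ) (hq : ∀ i, 0 ≤ q i) (hs : ∑ i, q i = 1)
    (hc : ∀ i, c i ∈ Set.Icc (0 : ℝ) 1) :
    sfun γ ν (∑ i, q i * c i) ≤ ∑ i, q i * sfun γ ν (c i) := by
  set z : ℝ → ℂ := fun x => ((√γ * √(1 - γ) * (ν - x) : ℝ) : ℂ)
    + ((√γ * √ν * √(1 - ν) : ℝ) : ℂ) * Complex.I with hz
  have hzn : ∀ x, ‖z x‖ ^ 2 = dl γ ν x := by
    intro x
    rw [hz, ← Complex.normSq_eq_norm_sq, Complex.normSq_add_mul_I]
    unfold dl
    rw [mul_pow, mul_pow, mul_pow, mul_pow, sq_sqrt hγ.1, sq_sqrt (sub_nonneg.mpr hγ.2),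
      sq_sqrt hν.1, sq_sqrt (sub_nonneg.mpr hν.2)]
    ring
  have hs' : ∀ x, sfun γ ν x = Wo (2 * ‖z x‖) := by
    intro x; unfold sfun Wo; rw [← hzn]; congr 1; ring
  have hle : ∀ i, 2 * ‖z (c i)‖ ∈ Set.Icc (0 : ℝ) 1 := by
    intro i
    refine ⟨by positivity, ?_⟩
    have := dl_le (ν := ν) hγ (hc i)
    rw [← hzn] at this
    nlinarith [norm_nonneg (z (c i))]
  have h1 : z (∑ i, q i * c i) = ∑ i, (q i : ℂ) * z (c i) := by
    have hs2 : ∑ i, (q i : ℂ) = 1 := by exact_mod_cast hs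
    simp only [hz]
    push_cast
    simp only [mul_add, mul_sub, Finset.sum_add_distrib, Finset.sum_sub_distrib, ← Finset.sum_mul,
      hs2, Finset.mul_sum]
    rw [one_mul, one_mul]
    congr 2
    exact Finset.sum_congr rfl fun i _ => by ring
  have h2 : 2 * ‖z (∑ i, q i * c i)‖ ≤ ∑ i, q i * (2 * ‖z (c i)‖) := by
    rw [h1]
    have := norm_sum_le Finset.univ (fun i => (q i : ℂ) * z (c i))
    simp only [norm_mul, Complex.norm_real, Real.norm_eq_abs, abs_of_nonneg (hq _)] at this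
    have e : ∑ i, q i * (2 * ‖z (c i)‖) = 2 * ∑ i, q i * ‖z (c i)‖ := by
      rw [Finset.mul_sum]; exact Finset.sum_congr rfl fun i _ => by ring
    linarith
  have h3 : ∑ i, q i * (2 * ‖z (c i)‖) ≤ 1 := by
    rw [← hs]
    exact Finset.sum_le_sum fun i _ => mul_le_of_le_one_right (hq i) (hle i).2
  have h4 := Wo_convex.map_sum_le (t := Finset.univ) (w := q) (p := fun i => 2 * ‖z (c i)‖)
    (fun i _ => hq i) hs (fun i _ => hle i)
  simp only [smul_eq_mul] at h4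
  simp only [hs']
  exact (Wo_mono (by positivity) h2 h3).trans h4

section
variable {c d : Type} [Fintype c] [DecidableEq c] [Fintype d] [DecidableEq d]

lemma marg_mem {R : Type*} [Fintype R] [DecidableEq R] {σ : Matrix (Fin 2 × R) (Fin 2 × R) ℂ}
    (hσ : σ.PosSemidef) (ht : σ.trace = 1) : (marg σ 1 1).re ∈ Set.Icc (0 : ℝ) 1 := by
  have h0 := diag_re_nonneg (marg_psd hσ) 0
  have h1 := diag_re_nonneg (marg_psd hσ) 1
  have := congrArg Complex.re (trace_marg σ)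
  rw [ht, Complex.add_re, Complex.one_re] at this
  exact ⟨h1, by linarith⟩

lemma tenId_gadc_psd {γ ν : ℝ} (hγ : γ ∈ Set.Icc (0 : ℝ) 1) (hν : ν ∈ Set.Icc (0 : ℝ) 1)
    {σ : Matrix (Fin 2 × d) (Fin 2 × d) ℂ} (hσ : σ.PosSemidef) :
    (tenId (gadc γ ν) σ).PosSemidef := by
  rw [gadc_split hγ hν (w := 1) (by simp), show (1 / 2 : ℂ) = ((1 / 2 : ℝ) : ℂ) by simp]
  exact psd_real_smul (((act_psd _ hσ).add (act_psd _ hσ)).add
    ((act_psd _ hσ).add (act_psd _ hσ))) (by norm_num)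

theorem upper {γ ν : ℝ} (hγ : γ ∈ Set.Icc (0 : ℝ) 1) (hν : ν ∈ Set.Icc (0 : ℝ) 1) [Nonempty c]
    {M : Matrix c c ℂ → Matrix d d ℂ} (hM : Kraus M) {x : ℝ}
    (hx : x ∈ holevoValues (tensorMap (gadc γ ν) M)) :
    ∃ q ∈ Set.Icc (0 : ℝ) 1, ∃ y ∈ holevoValues M, x ≤ capFun γ ν q + y := by
  obtain ⟨k, q, ρ, h1, h2, h3, rfl⟩ := holevoValues_elim hx
  have hA := (gadc_kraus hγ hν).lin
  simp only [tensorMap_eq hA hM.lin]
  set σ : Fin k → Matrix (Fin 2 × d) (Fin 2 × d) ℂ := fun a => idTen M (ρ a) with hσ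
  have hσp : ∀ a, (σ a).PosSemidef := fun a => hM.idTen_psd (h3 a).1
  have hmarg : ∀ a i j, marg (σ a) i j = marg (ρ a) i j := by
    intro a i j; simp only [marg, hσ, blk_idTen, hM.trace]
  have hσt : ∀ a, (σ a).trace = 1 := by
    intro a; rw [trace_marg, hmarg, hmarg, ← trace_marg, (h3 a).2]
  choose m hm hcore using fun a => core hγ hν (hσp a) (hσt a)
  set cc : Fin k → ℝ := fun a => (marg (σ a) 1 1).re with hcc
  have hcc1 : ∀ a, cc a ∈ Set.Icc (0 : ℝ) 1 := fun a => marg_mem (hσp a) (hσt a)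
  set τ : Fin k × (Fin 3 ⊕ Fin 3) → Matrix c c ℂ :=
    fun p => ((q p.1 / 2 : ℝ) : ℂ) • con (m p.1 p.2) (m p.1 p.2) (ρ p.1) with hτ
  have hτp : ∀ p, (τ p).PosSemidef := fun p =>
    psd_real_smul (con_psd _ (h3 p.1).1) (by have := h1 p.1; positivity)
  have hτs : ∑ p, τ p = ∑ a, (q a : ℂ) • (blk (ρ a) 0 0 + blk (ρ a) 1 1) := by
    rw [Fintype.sum_prod_type]
    refine Finset.sum_congr rfl fun a _ => ?_
    simp only [hτ, ← Finset.smul_sum, con_eq]
    rw [Finset.sum_comm]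
    have : ∀ i, ∑ e, ∑ j, (m a e i * star (m a e j)) • blk (ρ a) i j
        = ∑ j, (if i = j then (2 : ℂ) else 0) • blk (ρ a) i j := by
      intro i
      rw [Finset.sum_comm]
      exact Finset.sum_congr rfl fun j _ => by rw [← Finset.sum_smul, hm]
    simp only [this]
    simp only [Fin.sum_univ_two, if_true, Fin.zero_eq_one_iff, Fin.one_eq_zero_iff,
      OfNat.ofNat_ne_one, if_false, zero_smul, add_zero, zero_add, ← smul_add, smul_smul]
    congr 1
    push_cast; ring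
  have hτt : ∑ p, (τ p).trace.re = 1 := by
    rw [← Complex.re_sum, ← trace_sum, hτs, trace_sum]
    have : ∀ a, ((q a : ℂ) • (blk (ρ a) 0 0 + blk (ρ a) 1 1)).trace = q a := by
      intro a
      rw [trace_smul, trace_add]
      have := trace_marg (ρ a)
      rw [(h3 a).2] at this
      unfold marg at this
      rw [← this]; simp
    simp only [this, ← Complex.ofReal_sum, h2, Complex.ofReal_re]
  have hy := hM.unnormalized τ hτp hτt
  refine ⟨∑ a, q a * cc a, ⟨Finset.sum_nonneg fun a _ => mul_nonneg (h1 a) (hcc1 a).1, ?_⟩, _, hy,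
    ?_⟩
  · rw [← h2]
    exact Finset.sum_le_sum fun a _ => mul_le_of_le_one_right (h1 a) (hcc1 a).2
  rw [capFun_eq, ← add_div]
  apply div_le_div_of_nonneg_right _ (log_pos one_lt_two).le
  set W := ∑ a, (q a : ℂ) • tenId (gadc γ ν) (σ a) with hW
  have hWp : W.PosSemidef :=
    posSemidef_sum _ fun a _ => psd_real_smul (tenId_gadc_psd hγ hν (hσp a)) (h1 a)
  have hb := hWp.submatrix (eqv d)
  rw [submatrix_eqv, blk_conj hWp.1 0 1] at hb
  have h5 := S_block_le _ _ _ hb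
  rw [← blk_conj hWp.1 0 1, ← submatrix_eqv, S_submatrix] at h5
  have hblk : ∀ i j, blk W i j = ∑ a, (q a : ℂ) • blk (tenId (gadc γ ν) (σ a)) i j := by
    intro i j; ext k l; simp [hW, blk, Matrix.sum_apply]
  have b0 : ∀ a, blk (tenId (gadc γ ν) (σ a)) 0 0 = ((1 - γ * ν : ℝ) : ℂ) • blk (σ a) 0 0
      + ((γ * (1 - ν) : ℝ) : ℂ) • blk (σ a) 1 1 := by
    intro a; ext k l; simp [blk, tenId, gadc]
  have b1 : ∀ a, blk (tenId (gadc γ ν) (σ a)) 1 1 = ((γ * ν : ℝ) : ℂ) • blk (σ a) 0 0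
      + ((1 - γ * (1 - ν) : ℝ) : ℂ) • blk (σ a) 1 1 := by
    intro a; ext k l; simp [blk, tenId, gadc]
  have e1 : blk W 0 0 + blk W 1 1 = M (∑ p, τ p) := by
    rw [hτs, lin_sum hM.lin, hblk, hblk, ← Finset.sum_add_distrib]
    refine Finset.sum_congr rfl fun a _ => ?_
    rw [hM.lin.map_smul, hM.lin.map_add, ← blk_idTen M, ← blk_idTen M, b0, b1, ← smul_add]
    congr 1
    push_cast
    module
  have t0 : ∀ a, (blk (σ a) 0 0).trace.re = 1 - cc a := by
    intro a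
    have := congrArg Complex.re (trace_marg (σ a))
    rw [hσt a, Complex.add_re, Complex.one_re] at this
    simp only [hcc]; unfold marg at this ⊢; linarith
  have t1 : ∀ a, (blk (σ a) 1 1).trace.re = cc a := fun a => rfl
  have e2 : (blk W 1 1).trace.re = (1 - γ) * (∑ a, q a * cc a) + γ * ν := by
    rw [hblk, trace_sum, Complex.re_sum]
    simp only [b1, trace_smul, trace_add, smul_eq_mul, Complex.re_ofReal_mul, Complex.add_re,
      t0, t1]
    have : ∀ a, q a * (γ * ν * (1 - cc a) + (1 - γ * (1 - ν)) * cc a)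
        = (1 - γ) * (q a * cc a) + q a * (γ * ν) := fun a => by ring
    simp only [this, Finset.sum_add_distrib, ← Finset.mul_sum, ← Finset.sum_mul, h2, one_mul]
  have e3 : (blk W 0 0).trace.re = 1 - ((1 - γ) * (∑ a, q a * cc a) + γ * ν) := by
    rw [hblk, trace_sum, Complex.re_sum]
    simp only [b0, trace_smul, trace_add, smul_eq_mul, Complex.re_ofReal_mul, Complex.add_re,
      t0, t1]
    have : ∀ a, q a * ((1 - γ * ν) * (1 - cc a) + γ * (1 - ν) * cc a)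
        = q a * (1 - γ * ν) - (1 - γ) * (q a * cc a) := fun a => by ring
    simp only [this, Finset.sum_sub_distrib, ← Finset.mul_sum, ← Finset.sum_mul, h2, one_mul]
    ring
  rw [e1, e2, e3, sub_add_cancel, negMulLog_one] at h5
  have h6 := sfun_jensen hγ hν q cc h1 h2 hcc1
  have h7 : ∑ p, Sh (M (τ p)) = ∑ a, q a * ((1 / 2) * ∑ e, Sh (con (m a e) (m a e) (σ a))) := by
    rw [Fintype.sum_prod_type]
    refine Finset.sum_congr rfl fun a _ => ?_
    rw [Finset.mul_sum, Finset.mul_sum]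
    refine Finset.sum_congr rfl fun e _ => ?_
    simp only [hτ, hσ]
    rw [hM.lin.map_smul, Sh_smul (hM.psd (con_psd _ (h3 a).1)).1, con_idTen hM.lin]
    ring
  have h8 : ∑ a, q a * sfun γ ν (cc a)
      + ∑ a, q a * ((1 / 2) * ∑ e, Sh (con (m a e) (m a e) (σ a)))
      ≤ ∑ a, q a * S (tenId (gadc γ ν) (σ a)) := by
    rw [← Finset.sum_add_distrib]
    refine Finset.sum_le_sum fun a _ => ?_
    rw [← mul_add]
    exact mul_le_mul_of_nonneg_left (hcore a) (h1 a)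
  linarith

/-- the two optimal pure states -/
noncomputable def pst (q ε : ℝ) : Matrix (Fin 2) (Fin 2) ℂ :=
  !![((1 - q : ℝ) : ℂ), ((ε * √(q * (1 - q)) : ℝ) : ℂ); ((ε * √(q * (1 - q)) : ℝ) : ℂ), (q : ℂ)]

lemma pst_state {q ε : ℝ} (hq : q ∈ Set.Icc (0 : ℝ) 1) (hε : ε ^ 2 = 1) : IsState (pst q ε) := by
  constructor
  · have : pst q ε = vecMulVec ![((√(1 - q) : ℝ) : ℂ), ((ε * √q : ℝ) : ℂ)]
        (star ![((√(1 - q) : ℝ) : ℂ), ((ε * √q : ℝ) : ℂ)]) := by
      have s1 : √(1 - q) * √(1 - q) = 1 - q := mul_self_sqrt (sub_nonneg.mpr hq.2)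
      have s2 : ε * √q * (ε * √q) = q := by
        have := mul_self_sqrt hq.1
        linear_combination √q * √q * hε + this
      have s3 : √(q * (1 - q)) = √q * √(1 - q) := sqrt_mul hq.1 _
      ext i j
      fin_cases i <;> fin_cases j <;>
        simp only [pst, vecMulVec_apply, Pi.star_apply, Complex.star_def, of_apply, cons_val',
          Fin.zero_eta, Fin.mk_one, cons_val_zero, cons_val_one, cons_val_fin_one,
          Complex.conj_ofReal, ← Complex.ofReal_mul, Complex.ofReal_inj, s1, s2, s3] <;> ring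
    rw [this]
    exact posSemidef_vecMulVec_self_star _
  · simp [pst, trace]

lemma S_gadc_pst {γ ν q ε : ℝ} (hγ : γ ∈ Set.Icc (0 : ℝ) 1) (hν : ν ∈ Set.Icc (0 : ℝ) 1)
    (hq : q ∈ Set.Icc (0 : ℝ) 1) (hε : ε ^ 2 = 1) : S (gadc γ ν (pst q ε)) = sfun γ ν q := by
  have hk := gadc_kraus hγ hν
  unfold sfun
  apply S_two (hk.psd (pst_state hq hε).1).1
  · rw [hk.trace, (pst_state hq hε).2]; simp
  · obtain ⟨-, h2, -, -⟩ := sq_facts hγ hν
    have s1 : ((√(q * (1 - q)) : ℝ) : ℂ) ^ 2 = q * (1 - q) := by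
      exact_mod_cast sq_sqrt (mul_nonneg hq.1 (sub_nonneg.mpr hq.2))
    have hε' : (ε : ℂ) ^ 2 = 1 := by exact_mod_cast hε
    rw [det_fin_two, dl_eq]
    set e : ℂ := ((√(1 - γ) : ℝ) : ℂ)
    set r : ℂ := ((√(q * (1 - q)) : ℝ) : ℂ)
    simp [gadc, pst]
    linear_combination -(ε ^ 2 * r ^ 2 * h2 + (1 - γ) * r ^ 2 * hε' + (1 - γ) * s1)
  · simpa using dl_le hγ hq

theorem lower {γ ν q : ℝ} (hγ : γ ∈ Set.Icc (0 : ℝ) 1) (hν : ν ∈ Set.Icc (0 : ℝ) 1)
    (hq : q ∈ Set.Icc (0 : ℝ) 1) {M : Matrix c c ℂ → Matrix d d ℂ} (hM : Kraus M) {y : ℝ}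
    (hy : y ∈ holevoValues M) : capFun γ ν q + y ∈ holevoValues (tensorMap (gadc γ ν) M) := by
  obtain ⟨k, p, ρ, h1, h2, h3, rfl⟩ := holevoValues_elim hy
  have hk := gadc_kraus hγ hν
  set ε : Fin 2 → ℝ := ![1, -1] with hε
  have hε2 : ∀ i, ε i ^ 2 = 1 := by intro i; fin_cases i <;> simp [hε]
  have := mem_holevoValues (tensorMap (gadc γ ν) M) (fun x : Fin 2 × Fin k => p x.2 / 2)
    (fun x => pst q (ε x.1) ⊗ₖ ρ x.2) (fun x => by have := h1 x.2; positivity)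
    (by rw [Fintype.sum_prod_type]; simp [← Finset.sum_div, h2])
    (fun x => ⟨(pst_state hq (hε2 x.1)).1.kronecker (h3 x.2).1, by
      rw [trace_kronecker, (pst_state hq (hε2 x.1)).2, (h3 x.2).2, one_mul]⟩)
  convert this using 1
  rw [capFun_eq, ← add_div]
  congr 1
  simp only [tensorMap_kronecker hk.lin hM.lin]
  set t := (1 - γ) * q + γ * ν with ht
  set W := ∑ i, (p i : ℂ) • M (ρ i) with hW
  have hWp : W.PosSemidef := posSemidef_sum _ fun i _ => psd_real_smul (hM.psd (h3 i).1) (h1 i)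
  have hWt : W.trace = 1 := by
    rw [hW, trace_sum]
    simp only [trace_smul, hM.trace, fun i => (h3 i).2, smul_eq_mul, mul_one]
    exact_mod_cast h2
  have e1 : ∑ x : Fin 2 × Fin k, ((p x.2 / 2 : ℝ) : ℂ) • (gadc γ ν (pst q (ε x.1)) ⊗ₖ M (ρ x.2))
      = diagonal (fun i => ((![1 - t, t] i : ℝ) : ℂ)) ⊗ₖ W := by
    ext ⟨i, a⟩ ⟨j, b⟩
    simp only [Matrix.sum_apply, Fintype.sum_prod_type, Fin.sum_univ_two, Matrix.smul_apply,
      kroneckerMap_apply, hW, Finset.mul_sum, ← Finset.sum_add_distrib, smul_eq_mul]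
    refine Finset.sum_congr rfl fun x _ => ?_
    fin_cases i <;> fin_cases j <;> simp [gadc, pst, hε, ht] <;> ring
  rw [e1, S_kronecker (isHermitian_diag_real _) hWp.1, hWt]
  have e2 : ∀ x : Fin 2 × Fin k, S (gadc γ ν (pst q (ε x.1)) ⊗ₖ M (ρ x.2))
      = sfun γ ν q + S (M (ρ x.2)) := by
    intro x
    rw [S_kronecker (hk.psd (pst_state hq (hε2 x.1)).1).1 (hM.psd (h3 x.2).1).1, hM.trace,
      hk.trace, (h3 x.2).2, (pst_state hq (hε2 x.1)).2, S_gadc_pst hγ hν hq (hε2 x.1)]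
    simp
  simp only [e2]
  have e3 : S (diagonal (fun i => ((![1 - t, t] i : ℝ) : ℂ))) = negMulLog (1 - t) + negMulLog t := by
    unfold S; rw [trf_diagonal]; simp
  have e4 : ∑ x : Fin 2 × Fin k, p x.2 / 2 * (sfun γ ν q + S (M (ρ x.2)))
      = sfun γ ν q + ∑ i, p i * S (M (ρ i)) := by
    rw [Fintype.sum_prod_type, Fin.sum_univ_two, ← Finset.sum_add_distrib]
    have : ∀ i, p i / 2 * (sfun γ ν q + S (M (ρ i))) + p i / 2 * (sfun γ ν q + S (M (ρ i)))
        = p i * sfun γ ν q + p i * S (M (ρ i)) := fun i => by ring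
    simp only [this, Finset.sum_add_distrib, ← Finset.sum_mul, h2, one_mul]
  rw [e3, e4, trace_diagonal]
  simp
  ring

end

lemma exists_max (γ ν : ℝ) : ∃ q₀ ∈ Set.Icc (0 : ℝ) 1, ∀ q ∈ Set.Icc (0 : ℝ) 1,
    capFun γ ν q ≤ capFun γ ν q₀ := by
  have : Continuous (capFun γ ν) := by
    unfold capFun h2; fun_prop
  exact isCompact_Icc.exists_isMaxOn ⟨0, by simp⟩ this.continuousOn

lemma pow_succ_reindex (N : Matrix (Fin 2) (Fin 2) ℂ → Matrix (Fin 2) (Fin 2) ℂ) (n : ℕ) :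
    holevoValues (tensorMap N (tensorPow N n)) = holevoValues (tensorPow N (n + 1)) := by
  set e : Fin 2 × (Fin n → Fin 2) ≃ (Fin (n + 1) → Fin 2) := Fin.consEquiv (fun _ => Fin 2)
    with he
  apply holevoValues_reindex e e
  intro X
  ext ⟨i, i'⟩ ⟨j, j'⟩
  simp only [tensorMap, tensorPow, submatrix_apply]
  rw [← e.sum_comp]
  refine Finset.sum_congr rfl fun k _ => ?_
  rw [← e.sum_comp]
  refine Finset.sum_congr rfl fun l _ => ?_
  rw [Fin.prod_univ_succ]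
  simp [he, single_apply, ite_and]

lemma pow_one_reindex {N : Matrix (Fin 2) (Fin 2) ℂ → Matrix (Fin 2) (Fin 2) ℂ}
    (hN : IsLinearMap ℂ N) : holevoValues N = holevoValues (tensorPow N 1) := by
  set e : Fin 2 ≃ (Fin 1 → Fin 2) := (Equiv.funUnique (Fin 1) (Fin 2)).symm with he
  apply holevoValues_reindex e e
  intro X
  ext i j
  rw [lin_expand hN]
  simp only [tensorPow, submatrix_apply]
  rw [← e.sum_comp]
  refine Finset.sum_congr rfl fun k _ => ?_
  rw [← e.sum_comp]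
  refine Finset.sum_congr rfl fun l _ => ?_
  simp [he]

lemma pow_zero_values {N : Matrix (Fin 2) (Fin 2) ℂ → Matrix (Fin 2) (Fin 2) ℂ} (hN : Kraus N) :
    IsGreatest (holevoValues (tensorPow N 0)) 0 := by
  have hk := hN.pow 0
  have hS : ∀ X : Matrix (Fin 0 → Fin 2) (Fin 0 → Fin 2) ℂ, X.PosSemidef → X.trace = 1 → S X = 0 := by
    intro X h1 h2
    apply le_antisymm _ (S_nonneg h1 h2)
    have := S_le_diag h1
    simp only [trace, diag_apply, Fintype.sum_unique] at h2 this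
    rw [h2] at this; simpa using this
  have hall : ∀ x ∈ holevoValues (tensorPow N 0), x = 0 := by
    intro x hx
    obtain ⟨k, q, ρ, h1, h2, h3, rfl⟩ := holevoValues_elim hx
    rw [hS _ (posSemidef_sum _ fun i _ => psd_real_smul (hk.psd (h3 i).1) (h1 i))]
    · simp [fun i => hS _ (hk.psd (h3 i).1) (by rw [hk.trace, (h3 i).2])]
    · rw [trace_sum]
      simp only [trace_smul, hk.trace, fun i => (h3 i).2, smul_eq_mul, mul_one]
      exact_mod_cast h2
  obtain ⟨x, hx⟩ := holevoValues_nonempty (tensorPow N 0)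
  exact ⟨hall x hx ▸ hx, fun y hy => (hall y hy).le⟩

theorem pow_greatest {γ ν q₀ : ℝ} (hγ : γ ∈ Set.Icc (0 : ℝ) 1) (hν : ν ∈ Set.Icc (0 : ℝ) 1)
    (hq : q₀ ∈ Set.Icc (0 : ℝ) 1) (hmax : ∀ q ∈ Set.Icc (0 : ℝ) 1, capFun γ ν q ≤ capFun γ ν q₀)
    (n : ℕ) : IsGreatest (holevoValues (tensorPow (gadc γ ν) n)) (n * capFun γ ν q₀) := by
  have hk := gadc_kraus hγ hν
  induction n with
  | zero => simpa using pow_zero_values hk
  | succ n ih =>
    rw [← pow_succ_reindex]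
    have e : ((n + 1 : ℕ) : ℝ) * capFun γ ν q₀ = capFun γ ν q₀ + n * capFun γ ν q₀ := by
      push_cast; ring
    rw [e]
    refine ⟨lower hγ hν hq (hk.pow n) ih.1, fun x hx => ?_⟩
    obtain ⟨q, hq', y, hy, hxy⟩ := upper hγ hν (hk.pow n) hx
    linarith [hmax q hq', ih.2 hy]

theorem additivity {γ ν q₀ : ℝ} (hγ : γ ∈ Set.Icc (0 : ℝ) 1) (hν : ν ∈ Set.Icc (0 : ℝ) 1)
    (hq : q₀ ∈ Set.Icc (0 : ℝ) 1) (hmax : ∀ q ∈ Set.Icc (0 : ℝ) 1, capFun γ ν q ≤ capFun γ ν q₀)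
    {c d : Type} [Fintype c] [DecidableEq c] [Fintype d] [DecidableEq d] [Nonempty c]
    {M : Matrix c c ℂ → Matrix d d ℂ} (hM : Kraus M) :
    IsLUB (holevoValues (tensorMap (gadc γ ν) M)) (capFun γ ν q₀ + holevo M) := by
  constructor
  · intro x hx
    obtain ⟨q, hq', y, hy, hxy⟩ := upper hγ hν hM hx
    have : y ≤ holevo M := le_csSup hM.bddAbove hy
    linarith [hmax q hq']
  · intro b hb
    have : holevo M ≤ b - capFun γ ν q₀ := by
      apply csSup_le (holevoValues_nonempty M)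
      intro y hy
      linarith [hb (lower hγ hν hq hM hy)]
    linarith

end Vale.Agent.P358
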