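import Vale.Agent.P358.ThreePath

/-! Qubit maps with two Kraus operators. -/

set_option linter.unusedSectionVars false

namespace Vale.Agent.P358

open Matrix Finset Real
open scoped ComplexOrder Kronecker

variable {R : Type*} [Fintype R] [DecidableEq R]

/-- contraction of the qubit factor -/
noncomputable def con (v w : Fin 2 → ℂ) (σ : Matrix (Fin 2 × R) (Fin 2 × R) ℂ) : Matrix R R ℂ :=
  fun k l => ∑ i, ∑ j, v i * star (w j) * σ (i, k) (j, l)

/-- conjugation on the qubit factor -/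
noncomputable def act (K : Matrix (Fin 2) (Fin 2) ℂ) (σ : Matrix (Fin 2 × R) (Fin 2 × R) ℂ) :
    Matrix (Fin 2 × R) (Fin 2 × R) ℂ :=
  (K ⊗ₖ (1 : Matrix R R ℂ)) * σ * (K ⊗ₖ (1 : Matrix R R ℂ))ᴴ

/-- blocks -/
def blk (σ : Matrix (Fin 2 × R) (Fin 2 × R) ℂ) (i j : Fin 2) : Matrix R R ℂ :=
  fun k l => σ (i, k) (j, l)

lemma act_apply (K : Matrix (Fin 2) (Fin 2) ℂ) (σ : Matrix (Fin 2 × R) (Fin 2 × R) ℂ)
    (i j : Fin 2) (k l : R) : act K σ (i, k) (j, l) = con (K i) (K j) σ k l := by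
  unfold act con
  simp [mul_apply, Fintype.sum_prod_type, one_apply, apply_ite]
  ring

lemma act_psd (K : Matrix (Fin 2) (Fin 2) ℂ) {σ : Matrix (Fin 2 × R) (Fin 2 × R) ℂ}
    (h : σ.PosSemidef) : (act K σ).PosSemidef := h.mul_mul_conjTranspose_same _

lemma blk_psd {σ : Matrix (Fin 2 × R) (Fin 2 × R) ℂ} (h : σ.PosSemidef) (i : Fin 2) :
    (blk σ i i).PosSemidef := h.submatrix (fun k => (i, k))

lemma con_psd (v : Fin 2 → ℂ) {σ : Matrix (Fin 2 × R) (Fin 2 × R) ℂ} (h : σ.PosSemidef) :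
    (con v v σ).PosSemidef := by
  have : con v v σ = blk (act (Matrix.of fun _ => v) σ) 0 0 := by
    ext k l; rw [blk, act_apply]; rfl
  rw [this]; exact blk_psd (act_psd _ h) 0

/-- the index equivalence -/
def eqv (R : Type*) : R ⊕ R ≃ Fin 2 × R where
  toFun := Sum.elim (fun k => (0, k)) (fun k => (1, k))
  invFun := fun p => if p.1 = 0 then Sum.inl p.2 else Sum.inr p.2
  left_inv := by rintro (k | k) <;> simp
  right_inv := by
    rintro ⟨i, k⟩
    fin_cases i <;> simp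

lemma submatrix_eqv (σ : Matrix (Fin 2 × R) (Fin 2 × R) ℂ) :
    σ.submatrix (eqv R) (eqv R) = fromBlocks (blk σ 0 0) (blk σ 0 1) (blk σ 1 0) (blk σ 1 1) := by
  ext (k | k) (l | l) <;> rfl

lemma blk_conj {σ : Matrix (Fin 2 × R) (Fin 2 × R) ℂ} (h : σ.IsHermitian) (i j : Fin 2) :
    blk σ j i = (blk σ i j)ᴴ := by
  ext k l
  simp [blk, h.apply]

lemma exists_singular (L1 L2 : Matrix (Fin 2) (Fin 2) ℂ) :
    ∃ x y : ℂ, x * star x + y * star y = 1 ∧ (x • L1 + y • L2).det = 0 := by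
  have h0 : ∃ x y : ℂ, (x ≠ 0 ∨ y ≠ 0) ∧ (x • L1 + y • L2).det = 0 := by
    by_cases hd : L2.det = 0
    · exact ⟨0, 1, Or.inr one_ne_zero, by simpa using hd⟩
    · obtain ⟨y, hy⟩ := exists_quadratic_eq_zero (a := L2.det)
        (b := L1 0 0 * L2 1 1 + L1 1 1 * L2 0 0 - L1 0 1 * L2 1 0 - L1 1 0 * L2 0 1) (c := L1.det)
        hd (IsAlgClosed.exists_eq_mul_self _)
      refine ⟨1, y, Or.inl one_ne_zero, ?_⟩
      rw [det_fin_two] at hy ⊢
      rw [det_fin_two] at hy
      simp only [Matrix.add_apply, Matrix.smul_apply, smul_eq_mul]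
      linear_combination hy
  obtain ⟨x, y, hxy, hd⟩ := h0
  set r : ℝ := √(‖x‖ ^ 2 + ‖y‖ ^ 2) with hr
  have hpos : 0 < ‖x‖ ^ 2 + ‖y‖ ^ 2 := by
    rcases hxy with h | h
    · have := norm_pos_iff.mpr h; positivity
    · have := norm_pos_iff.mpr h; positivity
  have hr0 : (r : ℂ) ≠ 0 := by exact_mod_cast (sqrt_pos.mpr hpos).ne'
  have hr2 : (r : ℂ) ^ 2 = x * star x + y * star y := by
    have : r ^ 2 = ‖x‖ ^ 2 + ‖y‖ ^ 2 := sq_sqrt hpos.le
    simp only [Complex.star_def, Complex.mul_conj, Complex.normSq_eq_norm_sq]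
    exact_mod_cast this
  refine ⟨x / r, y / r, ?_, ?_⟩
  · simp only [star_div₀, Complex.star_def, Complex.conj_ofReal] at hr2 ⊢
    field_simp
    linear_combination -hr2
  · have : (x / r) • L1 + (y / r) • L2 = (r : ℂ)⁻¹ • (x • L1 + y • L2) := by
      rw [smul_add, smul_smul, smul_smul, div_eq_inv_mul, div_eq_inv_mul]
    rw [this, det_smul, hd, mul_zero]

lemma exists_left_null {K : Matrix (Fin 2) (Fin 2) ℂ} (h : K.det = 0) :
    ∃ x y : ℂ, x * star x + y * star y = 1 ∧ ∀ j, x * K 0 j + y * K 1 j = 0 := by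
  obtain ⟨v, hv, hv0⟩ := exists_vecMul_eq_zero_iff.mpr h
  set x := v 0
  set y := v 1
  have hxy : x ≠ 0 ∨ y ≠ 0 := by
    by_contra hc
    push Not at hc
    apply hv; ext i; fin_cases i
    · exact hc.1
    · exact hc.2
  set r : ℝ := √(‖x‖ ^ 2 + ‖y‖ ^ 2) with hr
  have hpos : 0 < ‖x‖ ^ 2 + ‖y‖ ^ 2 := by
    rcases hxy with h | h
    · have := norm_pos_iff.mpr h; positivity
    · have := norm_pos_iff.mpr h; positivity
  have hr0 : (r : ℂ) ≠ 0 := by exact_mod_cast (sqrt_pos.mpr hpos).ne'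
  have hr2 : (r : ℂ) ^ 2 = x * star x + y * star y := by
    have : r ^ 2 = ‖x‖ ^ 2 + ‖y‖ ^ 2 := sq_sqrt hpos.le
    simp only [Complex.star_def, Complex.mul_conj, Complex.normSq_eq_norm_sq]
    exact_mod_cast this
  refine ⟨x / r, y / r, ?_, ?_⟩
  · simp only [star_div₀, Complex.star_def, Complex.conj_ofReal] at hr2 ⊢
    field_simp
    linear_combination -hr2
  · intro j
    have := congrFun hv0 j
    simp only [vecMul, dotProduct, Fin.sum_univ_two, Pi.zero_apply] at this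
    field_simp
    linear_combination this

theorem rank_two (L1 L2 : Matrix (Fin 2) (Fin 2) ℂ) : ∃ n m1 m2 : Fin 2 → ℂ,
    (∀ i j, n i * star (n j) + m1 i * star (m1 j) + m2 i * star (m2 j)
      = ∑ z, (L1 z i * star (L1 z j) + L2 z i * star (L2 z j))) ∧
    (∀ i j, m1 i * m2 j + m1 j * m2 i
      = L1 0 i * L2 1 j + L1 0 j * L2 1 i - L1 1 i * L2 0 j - L1 1 j * L2 0 i) ∧
    ∀ σ : Matrix (Fin 2 × R) (Fin 2 × R) ℂ, σ.PosSemidef →
      S (con n n σ) + S (con m2 m2 σ) + S (con m1 m1 σ)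
        + phi (con n n σ).trace.re (con m1 m1 σ).trace.re (con m2 m2 σ).trace.re
        ≤ S (act L1 σ + act L2 σ) := by
  obtain ⟨x, y, hxy, hd⟩ := exists_singular L1 L2
  obtain ⟨v, w, hvw, ho⟩ := exists_left_null hd
  set K' := x • L1 + y • L2 with hK'
  set K := (-star y) • L1 + star x • L2 with hK
  set U : Matrix (Fin 2) (Fin 2) ℂ := !![star w, -star v; v, w] with hU
  have hUU : Uᴴ * U = 1 := by
    ext i j
    fin_cases i <;> fin_cases j <;> simp [hU, mul_apply] <;>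
      simp only [Complex.star_def] at hvw
    · linear_combination hvw
    · ring
    · ring
    · linear_combination hvw
  have hrow : (U * K') 1 = 0 := by
    ext j; simpa [hU, mul_apply] using ho j
  have hn : ∀ i, (U * K) 0 i = star w * K 0 i - star v * K 1 i := by
    intro i; simp [hU, mul_apply]; ring
  have hm2 : ∀ i, (U * K) 1 i = v * K 0 i + w * K 1 i := by
    intro i; simp [hU, mul_apply]
  have hm1 : ∀ i, (U * K') 0 i = star w * K' 0 i - star v * K' 1 i := by
    intro i; simp [hU, mul_apply]; ring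
  have hKa : ∀ z i, K z i = -star y * L1 z i + star x * L2 z i := by
    intro z i; simp [hK]
  have hKb : ∀ z i, K' z i = x * L1 z i + y * L2 z i := by
    intro z i; simp [hK']
  refine ⟨(U * K) 0, (U * K') 0, (U * K) 1, ?_, ?_, ?_⟩
  · intro i j
    have h1 : star (v * K' 0 j + w * K' 1 j) = 0 := by rw [ho j, star_zero]
    have h2 : (U * K) 0 i * star ((U * K) 0 j) + (U * K') 0 i * star ((U * K') 0 j)
        + (U * K) 1 i * star ((U * K) 1 j)
        = ∑ z, (K z i * star (K z j) + K' z i * star (K' z j)) := by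
      simp only [hn, hm1, hm2, Fin.sum_univ_two, star_add, star_sub, star_mul', star_star] at h1 ⊢
      linear_combination (K 0 i * star (K 0 j) + K 1 i * star (K 1 j) + K' 0 i * star (K' 0 j)
        + K' 1 i * star (K' 1 j)) * hvw - (v * K' 0 i + w * K' 1 i) * h1
    rw [h2]
    refine Finset.sum_congr rfl fun z _ => ?_
    simp only [hKa, hKb, star_add, star_mul', star_neg, star_star]
    linear_combination (L1 z i * star (L1 z j) + L2 z i * star (L2 z j)) * hxy
  · have h1 : ∀ i j, (U * K') 0 j * (U * K) 1 i = -(K 0 i * K' 1 j - K 1 i * K' 0 j) := by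
      intro i j
      rw [hm1, hm2]
      linear_combination (star w * K 0 i - star v * K 1 i) * ho j
        - (K 0 i * K' 1 j - K 1 i * K' 0 j) * hvw
    intro i j
    rw [h1, h1]
    simp only [hKa, hKb]
    linear_combination (L1 0 i * L2 1 j + L1 0 j * L2 1 i - L1 1 i * L2 0 j - L1 1 j * L2 0 i) * hxy
  · intro σ hσ
    have e1 : act L1 σ + act L2 σ = act K σ + act K' σ := by
      ext ⟨i, k⟩ ⟨j, l⟩
      simp only [Matrix.add_apply, act_apply, con, Fin.sum_univ_two, hKa, hKb, star_add, star_mul',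
        star_neg, star_star]
      linear_combination -((L1 i 0 * star (L1 j 0) + L2 i 0 * star (L2 j 0)) * σ (0, k) (0, l)
        + (L1 i 0 * star (L1 j 1) + L2 i 0 * star (L2 j 1)) * σ (0, k) (1, l)
        + (L1 i 1 * star (L1 j 0) + L2 i 1 * star (L2 j 0)) * σ (1, k) (0, l)
        + (L1 i 1 * star (L1 j 1) + L2 i 1 * star (L2 j 1)) * σ (1, k) (1, l)) * hxy
    have hUU' : (U ⊗ₖ (1 : Matrix R R ℂ))ᴴ * (U ⊗ₖ (1 : Matrix R R ℂ)) = 1 := by
      rw [conjTranspose_kronecker, ← mul_kronecker_mul, hUU]; simp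
    have hact : ∀ X : Matrix (Fin 2) (Fin 2) ℂ, (U ⊗ₖ (1 : Matrix R R ℂ)) * act X σ
        * (U ⊗ₖ (1 : Matrix R R ℂ))ᴴ = act (U * X) σ := by
      intro X
      unfold act
      have : (U * X) ⊗ₖ (1 : Matrix R R ℂ) = (U ⊗ₖ (1 : Matrix R R ℂ)) * (X ⊗ₖ (1 : Matrix R R ℂ)) := by
        rw [← mul_kronecker_mul, Matrix.mul_one]
      rw [this, conjTranspose_mul]
      simp only [Matrix.mul_assoc]
    have hP : (act K σ + act K' σ).PosSemidef := (act_psd K hσ).add (act_psd K' hσ)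
    have e2 : S (act L1 σ + act L2 σ)
        = S ((act (U * K) σ + act (U * K') σ).submatrix (eqv R) (eqv R)) := by
      rw [e1, ← S_conj hP.1 hUU', Matrix.mul_add, Matrix.add_mul, hact, hact, S_submatrix]
    rw [e2]
    have hN := (act_psd (U * K) hσ).submatrix (eqv R)
    rw [submatrix_eqv, blk_conj (act_psd (U * K) hσ).1 0 1] at hN
    have key := three_path _ _ _ _ hN (con_psd ((U * K') 0) hσ)
    have b00 : blk (act (U * K) σ) 0 0 = con ((U * K) 0) ((U * K) 0) σ := by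
      ext k l; rw [blk, act_apply]
    have b11 : blk (act (U * K) σ) 1 1 = con ((U * K) 1) ((U * K) 1) σ := by
      ext k l; rw [blk, act_apply]
    rw [b00, b11] at key
    refine key.trans (le_of_eq ?_)
    congr 1
    rw [← blk_conj (act_psd (U * K) hσ).1 0 1]
    ext (k | k) (l | l) <;>
      simp [eqv, blk, act_apply, hrow, con]

end Vale.Agent.P358
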