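import Mathlib

/-! Scalar lemmas: the log-integral principle and the superadditivity of the three-edge
entropy defect. -/

namespace Vale.Agent.P358

open Real Finset

/-- Finite signed combinations of point evaluations at nonnegative points. -/
def Ev : Submodule ℝ ((ℝ → ℝ) → ℝ) :=
  Submodule.span ℝ {L | ∃ s : ℝ, 0 ≤ s ∧ L = fun f => f s}

lemma ev_point {s : ℝ} (hs : 0 ≤ s) : (fun f : ℝ → ℝ => f s) ∈ Ev :=
  Submodule.subset_span ⟨s, hs, rfl⟩

lemma ev_add {L M : (ℝ → ℝ) → ℝ} (hL : L ∈ Ev) (hM : M ∈ Ev) : (fun f => L f + M f) ∈ Ev :=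
  Ev.add_mem hL hM

lemma ev_sub {L M : (ℝ → ℝ) → ℝ} (hL : L ∈ Ev) (hM : M ∈ Ev) : (fun f => L f - M f) ∈ Ev :=
  Ev.sub_mem hL hM

lemma ev_mul (c : ℝ) {L : (ℝ → ℝ) → ℝ} (hL : L ∈ Ev) : (fun f => c * L f) ∈ Ev :=
  Ev.smul_mem c hL

lemma ev_sum {ι : Type*} [Fintype ι] {L : ι → (ℝ → ℝ) → ℝ} (hL : ∀ i, L i ∈ Ev) :
    (fun f => ∑ i, L i f) ∈ Ev := by
  have : (fun f => ∑ i, L i f) = ∑ i, L i := by
    funext f; simp [Finset.sum_apply]
  rw [this]
  exact Ev.sum_mem fun i _ => hL i

lemma log_principle_fin {ι : Type*} [Fintype ι] (c s : ι → ℝ) (hs : ∀ i, 0 ≤ s i)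
    (hc : ∑ i, c i = 0) (hcs : ∑ i, c i * s i = 0)
    (h : ∀ u, 0 < u → 0 ≤ ∑ i, c i * log (u + s i)) :
    0 ≤ ∑ i, c i * negMulLog (s i) := by
  set G : ℝ → ℝ := fun u => ∑ i, c i * negMulLog (u + s i) with hG
  have hcont : Continuous G := by
    simp only [hG]; fun_prop
  have hder : ∀ u, 0 < u → HasDerivAt G (-(∑ i, c i * log (u + s i))) u := by
    intro u hu
    have h1 : HasDerivAt G (∑ i, c i * (-log (u + s i) - 1)) u := by
      apply HasDerivAt.fun_sum
      intro i _
      have hne : u + s i ≠ 0 := by have := hs i; positivity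
      have h2 := (hasDerivAt_negMulLog hne).comp_add_const u (s i)
      exact h2.const_mul (c i)
    convert h1 using 1
    have : ∑ i, c i * (-log (u + s i) - 1) = -(∑ i, c i * log (u + s i)) - ∑ i, c i := by
      rw [← Finset.sum_neg_distrib, ← Finset.sum_sub_distrib]
      exact Finset.sum_congr rfl fun i _ => by ring
    rw [this, hc, sub_zero]
  have hanti : AntitoneOn G (Set.Ici 0) := by
    apply antitoneOn_of_hasDerivWithinAt_nonpos (convex_Ici 0) hcont.continuousOn
      (f' := fun u => -(∑ i, c i * log (u + s i)))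
    · intro x hx
      rw [interior_Ici] at hx
      exact (hder x hx).hasDerivWithinAt
    · intro x hx
      rw [interior_Ici] at hx
      linarith [h x hx]
  set K : ℝ := ∑ i, |c i| * s i ^ 2 with hK
  have hlow : ∀ u, 0 < u → -(K / u) ≤ G u := by
    intro u hu
    have e1 : G u = ∑ i, c i * (s i - (u + s i) * log (1 + s i / u)) := by
      have : ∀ i, c i * negMulLog (u + s i) = c i * (s i - (u + s i) * log (1 + s i / u))
          - (c i * s i) * (1 + log u) - c i * (u * log u) := by
        intro i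
        have h1 : u + s i = u * (1 + s i / u) := by field_simp
        have h2 : 0 < 1 + s i / u := by have := hs i; positivity
        have h3 : log (u + s i) = log u + log (1 + s i / u) := by
          rw [h1, log_mul hu.ne' h2.ne']
        simp only [negMulLog]
        rw [h3]; ring
      simp only [hG, this, Finset.sum_sub_distrib, ← Finset.sum_mul, hc, hcs]
      ring
    rw [e1, hK, Finset.sum_div, ← Finset.sum_neg_distrib]
    apply Finset.sum_le_sum
    intro i _
    have hsi := hs i
    have h2 : 0 < 1 + s i / u := by positivity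
    have hup : log (1 + s i / u) ≤ s i / u := by
      have := log_le_sub_one_of_pos h2; linarith
    have hlo : s i ≤ (u + s i) * log (1 + s i / u) := by
      have h3 := one_sub_inv_le_log_of_pos h2
      have h4 : 1 - (1 + s i / u)⁻¹ = s i / (u + s i) := by field_simp; ring
      rw [h4] at h3
      have h5 : 0 < u + s i := by positivity
      rwa [div_le_iff₀ h5, mul_comm] at h3
    have hup2 : (u + s i) * log (1 + s i / u) ≤ s i + s i ^ 2 / u := by
      have h5 : 0 < u + s i := by positivity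
      calc (u + s i) * log (1 + s i / u) ≤ (u + s i) * (s i / u) :=
            mul_le_mul_of_nonneg_left hup h5.le
        _ = s i + s i ^ 2 / u := by field_simp
    have habs : |s i - (u + s i) * log (1 + s i / u)| ≤ s i ^ 2 / u := by
      rw [abs_le]; constructor <;> nlinarith [div_nonneg (sq_nonneg (s i)) hu.le]
    have h6 : |c i * (s i - (u + s i) * log (1 + s i / u))| ≤ |c i| * s i ^ 2 / u := by
      rw [abs_mul, mul_div_assoc]
      exact mul_le_mul_of_nonneg_left habs (abs_nonneg _)
    exact (abs_le.mp h6).1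
  have hG0 : G 0 = ∑ i, c i * negMulLog (s i) := by simp [hG]
  rw [← hG0]
  have hK0 : 0 ≤ K := Finset.sum_nonneg fun i _ => by positivity
  by_contra hneg
  push Not at hneg
  have hpos : 0 < -G 0 := by linarith
  set u : ℝ := (K + 1) / (-G 0) with hu
  have hu0 : 0 < u := by positivity
  have h1 := hanti (Set.mem_Ici.mpr le_rfl) (Set.mem_Ici.mpr hu0.le) hu0.le
  have h2 := hlow u hu0
  have h3 : K / u < -G 0 := by
    rw [div_lt_iff₀ hu0, hu, mul_div_cancel₀ _ hpos.ne']; linarith
  linarith

lemma log_principle {L : (ℝ → ℝ) → ℝ} (hL : L ∈ Ev) (h1 : L (fun _ => 1) = 0)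
    (h2 : L (fun x => x) = 0) (h : ∀ u, 0 < u → 0 ≤ L (fun x => log (u + x))) :
    0 ≤ L negMulLog := by
  obtain ⟨n, c, g, hg⟩ := Submodule.mem_span_set'.mp hL
  choose s hs0 hs using fun i => (g i).2
  have key : ∀ f, L f = ∑ i, c i * f (s i) := by
    intro f
    rw [← hg, Finset.sum_apply]
    exact Finset.sum_congr rfl fun i _ => by rw [hs i]; simp
  rw [key]
  apply log_principle_fin c s hs0
  · simpa [key] using h1
  · simpa [key] using h2
  · intro u hu; simpa [key] using h u hu

/-- larger root of `x^2 - s x + p`. -/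
noncomputable def lp (s p : ℝ) : ℝ := (s + √(s ^ 2 - 4 * p)) / 2
/-- smaller root of `x^2 - s x + p`. -/
noncomputable def lm (s p : ℝ) : ℝ := (s - √(s ^ 2 - 4 * p)) / 2
/-- entropy of a two by two matrix of trace `s` and determinant `p`. -/
noncomputable def E2 (s p : ℝ) : ℝ := negMulLog (lp s p) + negMulLog (lm s p)

lemma lp_add_lm (s p : ℝ) : lp s p + lm s p = s := by unfold lp lm; ring

lemma lp_mul_lm {s p : ℝ} (h : 4 * p ≤ s ^ 2) : lp s p * lm s p = p := by
  unfold lp lm
  have := Real.sq_sqrt (show 0 ≤ s ^ 2 - 4 * p by linarith)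
  nlinarith

lemma lp_nonneg {s : ℝ} (p : ℝ) (hs : 0 ≤ s) : 0 ≤ lp s p := by unfold lp; positivity

lemma lm_nonneg {s p : ℝ} (hs : 0 ≤ s) (hp : 0 ≤ p) : 0 ≤ lm s p := by
  unfold lm
  have : √(s ^ 2 - 4 * p) ≤ s := by
    apply Real.sqrt_le_iff.mpr ⟨hs, by linarith⟩
  linarith

lemma log_lp_lm {s p u : ℝ} (hs : 0 ≤ s) (hp : 0 ≤ p) (h : 4 * p ≤ s ^ 2) (hu : 0 < u) :
    log (u + lp s p) + log (u + lm s p) = log (u ^ 2 + s * u + p) := by
  have h1 := lp_nonneg p hs
  have h2 := lm_nonneg hs hp
  rw [← log_mul (by positivity) (by positivity)]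
  congr 1
  have h3 := lp_add_lm s p
  have h4 := lp_mul_lm h
  linear_combination u * h3 + h4

lemma E2_of_roots {x y : ℝ} : E2 (x + y) (x * y) = negMulLog x + negMulLog y := by
  unfold E2 lp lm
  have : (x + y) ^ 2 - 4 * (x * y) = (x - y) ^ 2 := by ring
  rw [this, Real.sqrt_sq_eq_abs]
  rcases le_total x y with h | h
  · rw [abs_of_nonpos (by linarith)]
    rw [show (x + y + -(x - y)) / 2 = y by ring, show (x + y - -(x - y)) / 2 = x by ring, add_comm]
  · rw [abs_of_nonneg (by linarith)]
    rw [show (x + y + (x - y)) / 2 = x by ring, show (x + y - (x - y)) / 2 = y by ring]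

lemma E2_mono {s p p' : ℝ} (hs : 0 ≤ s) (hp : 0 ≤ p) (hpp : p ≤ p') (h : 4 * p' ≤ s ^ 2) :
    E2 s p ≤ E2 s p' := by
  have hp' : 0 ≤ p' := hp.trans hpp
  have h' : 4 * p ≤ s ^ 2 := by linarith
  have := log_principle (L := fun f => (f (lp s p') + f (lm s p')) - (f (lp s p) + f (lm s p)))
    (ev_sub (ev_add (ev_point (lp_nonneg _ hs)) (ev_point (lm_nonneg hs hp')))
      (ev_add (ev_point (lp_nonneg _ hs)) (ev_point (lm_nonneg hs hp))))
    (by simp) (by simp [lp_add_lm])
    (by
      intro u hu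
      simp only
      rw [log_lp_lm hs hp' h hu, log_lp_lm hs hp h' hu, sub_nonneg]
      apply log_le_log (by positivity); linarith)
  unfold E2; linarith

lemma E2_smul {t s p : ℝ} (ht : 0 ≤ t) :
    E2 (t * s) (t ^ 2 * p) = t * E2 s p + s * negMulLog t := by
  have e : √((t * s) ^ 2 - 4 * (t ^ 2 * p)) = t * √(s ^ 2 - 4 * p) := by
    rw [show (t * s) ^ 2 - 4 * (t ^ 2 * p) = t ^ 2 * (s ^ 2 - 4 * p) by ring,
      Real.sqrt_mul (sq_nonneg t), Real.sqrt_sq ht]
  have e1 : lp (t * s) (t ^ 2 * p) = t * lp s p := by unfold lp; rw [e]; ring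
  have e2 : lm (t * s) (t ^ 2 * p) = t * lm s p := by unfold lm; rw [e]; ring
  unfold E2
  rw [e1, e2, negMulLog_mul, negMulLog_mul]
  have := lp_add_lm s p
  linear_combination negMulLog t * this

/-- the three-edge defect. -/
noncomputable def phi (a y z : ℝ) : ℝ :=
  E2 (a + y + z) (y * z) - negMulLog a - negMulLog y - negMulLog z

lemma phi_zero (y z : ℝ) : phi 0 y z = 0 := by
  unfold phi; rw [zero_add, E2_of_roots]; simp

lemma phi_smul {t : ℝ} (ht : 0 ≤ t) (a y z : ℝ) :
    phi (t * a) (t * y) (t * z) = t * phi a y z := by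
  unfold phi
  rw [show t * a + t * y + t * z = t * (a + y + z) by ring,
    show t * y * (t * z) = t ^ 2 * (y * z) by ring, E2_smul ht, negMulLog_mul, negMulLog_mul,
    negMulLog_mul]
  ring

lemma tangent_log {c p q p0 q0 : ℝ} (hc : 0 ≤ c) (hp : 0 < p) (hq : 0 < q) (hp0 : 0 < p0)
    (hq0 : 0 < q0) :
    log (1 + c / (p0 * q0)) - c / (p0 * q0 + c) * ((p / p0 - 1) + (q / q0 - 1))
      ≤ log (1 + c / (p * q)) := by
  set k := c / (p0 * q0 + c) with hk
  have hk0 : 0 ≤ k := by positivity
  have hk1 : k ≤ 1 := by rw [hk, div_le_one (by positivity)]; nlinarith [mul_pos hp0 hq0]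
  set d := log (p / p0) + log (q / q0) with hd
  have h1 : d ≤ (p / p0 - 1) + (q / q0 - 1) := by
    have := log_le_sub_one_of_pos (div_pos hp hp0)
    have := log_le_sub_one_of_pos (div_pos hq hq0)
    linarith
  have h2 : exp (-d) = p0 * q0 / (p * q) := by
    rw [hd, exp_neg, exp_add, exp_log (div_pos hp hp0), exp_log (div_pos hq hq0)]
    field_simp
  have h3 : exp (k * (-d)) ≤ (1 - k) + k * exp (-d) := by
    have := convexOn_exp.2 (Set.mem_univ 0) (Set.mem_univ (-d)) (sub_nonneg.mpr hk1) hk0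
      (by ring)
    simpa using this
  have h4 : (1 + c / (p0 * q0)) * ((1 - k) + k * exp (-d)) = 1 + c / (p * q) := by
    rw [h2, hk]; field_simp; ring
  have h5 : log (1 + c / (p0 * q0)) + k * (-d) ≤ log (1 + c / (p * q)) := by
    rw [← h4, log_mul (by positivity) (by have := exp_pos (k * (-d)); linarith)]
    have : k * (-d) ≤ log ((1 - k) + k * exp (-d)) := by
      rw [le_log_iff_exp_le (by have := exp_pos (k * (-d)); linarith)]; exact h3
    linarith
  nlinarith

lemma four_mul_le {a y z : ℝ} (ha : 0 ≤ a) (hy : 0 ≤ y) (hz : 0 ≤ z) :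
    4 * (y * z) ≤ (a + y + z) ^ 2 := by
  nlinarith [sq_nonneg (y - z), mul_nonneg ha hy, mul_nonneg ha hz, sq_nonneg a]

lemma log_three {a y z u : ℝ} (ha : 0 ≤ a) (hy : 0 ≤ y) (hz : 0 ≤ z) (hu : 0 < u) :
    log (u + lp (a + y + z) (y * z)) + log (u + lm (a + y + z) (y * z)) - log (u + y) - log (u + z)
      = log (1 + u * a / ((u + y) * (u + z))) := by
  rw [log_lp_lm (by positivity) (by positivity) (four_mul_le ha hy hz) hu, sub_sub,
    ← log_mul (by positivity) (by positivity), ← log_div (by positivity) (by positivity)]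
  congr 1
  field_simp; ring

theorem phi_superadd {ι : Type*} [Fintype ι] (a y z : ι → ℝ) (ha : ∀ i, 0 ≤ a i)
    (hy : ∀ i, 0 ≤ y i) (hz : ∀ i, 0 ≤ z i) {A Y Z : ℝ} (hA : ∑ i, a i = A) (hY : ∑ i, y i ≤ Y)
    (hZ : ∑ i, z i ≤ Z) : phi A Y Z ≤ ∑ i, phi (a i) (y i) (z i) := by
  have hA0 : 0 ≤ A := hA ▸ Finset.sum_nonneg fun i _ => ha i
  have hY0 : 0 ≤ Y := (Finset.sum_nonneg fun i _ => hy i).trans hY
  have hZ0 : 0 ≤ Z := (Finset.sum_nonneg fun i _ => hz i).trans hZ
  rcases hA0.eq_or_lt with h0 | hApos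
  · have : ∀ i, a i = 0 := by
      intro i
      have := (Finset.sum_eq_zero_iff_of_nonneg (fun i _ => ha i)).mp (hA.trans h0.symm)
      exact this i (Finset.mem_univ i)
    simp [this, ← h0, phi_zero]
  set t : ι → ℝ := fun i => a i / A with ht
  have ht0 : ∀ i, 0 ≤ t i := fun i => div_nonneg (ha i) hA0
  have hts : ∑ i, t i = 1 := by
    simp only [ht]; rw [← Finset.sum_div, hA, div_self hApos.ne']
  set y' : ι → ℝ := fun i => y i / t i with hy'
  set z' : ι → ℝ := fun i => z i / t i with hz'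
  have hy0 : ∀ i, 0 ≤ y' i := fun i => div_nonneg (hy i) (ht0 i)
  have hz0 : ∀ i, 0 ≤ z' i := fun i => div_nonneg (hz i) (ht0 i)
  have hty : ∀ i, t i * y' i ≤ y i := by
    intro i
    rcases (ht0 i).eq_or_lt with h | h
    · rw [← h, zero_mul]; exact hy i
    · simp only [hy']; rw [mul_div_cancel₀ _ h.ne']
  have htz : ∀ i, t i * z' i ≤ z i := by
    intro i
    rcases (ht0 i).eq_or_lt with h | h
    · rw [← h, zero_mul]; exact hz i
    · simp only [hz']; rw [mul_div_cancel₀ _ h.ne']
  have hterm : ∀ i, phi (a i) (y i) (z i) = t i * phi A (y' i) (z' i) := by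
    intro i
    rcases (ht0 i).eq_or_lt with h | h
    · have : a i = 0 := by
        have h1 : a i / A = 0 := h.symm
        rcases div_eq_zero_iff.mp h1 with h2 | h2
        · exact h2
        · exact absurd h2 hApos.ne'
      rw [this, phi_zero, ← h, zero_mul]
    · rw [← phi_smul h.le]
      congr 1
      · simp only [ht]; field_simp
      · simp only [hy']; rw [mul_div_cancel₀ _ h.ne']
      · simp only [hz']; rw [mul_div_cancel₀ _ h.ne']
  have key := log_principle
    (L := fun f => (∑ i, t i * (f (lp (A + y' i + z' i) (y' i * z' i))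
        + f (lm (A + y' i + z' i) (y' i * z' i)) - f (y' i) - f (z' i)))
      - (f (lp (A + Y + Z) (Y * Z)) + f (lm (A + Y + Z) (Y * Z)) - f Y - f Z))
    (ev_sub (ev_sum fun i => ev_mul _ (ev_sub (ev_sub (ev_add
        (ev_point (lp_nonneg _ (by have := hy0 i; have := hz0 i; positivity)))
        (ev_point (lm_nonneg (by have := hy0 i; have := hz0 i; positivity)
          (mul_nonneg (hy0 i) (hz0 i))))) (ev_point (hy0 i))) (ev_point (hz0 i))))
      (ev_sub (ev_sub (ev_add (ev_point (lp_nonneg _ (by positivity)))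
        (ev_point (lm_nonneg (by positivity) (by positivity)))) (ev_point hY0)) (ev_point hZ0)))
    (by simp)
    (by
      simp only [lp_add_lm]
      have : ∀ i, t i * (A + y' i + z' i - y' i - z' i) = t i * A := fun i => by ring
      simp only [this, ← Finset.sum_mul, hts]; ring)
    (by
      intro u hu
      simp only
      rw [log_three hA0 hY0 hZ0 hu]
      have h1 : ∀ i, t i * (log (1 + u * A / ((u + Y) * (u + Z))) - u * A / ((u + Y) * (u + Z) + u * A)
          * (((u + y' i) / (u + Y) - 1) + ((u + z' i) / (u + Z) - 1))) ≤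
          t i * (log (u + lp (A + y' i + z' i) (y' i * z' i))
            + log (u + lm (A + y' i + z' i) (y' i * z' i)) - log (u + y' i) - log (u + z' i)) := by
        intro i
        rw [log_three hA0 (hy0 i) (hz0 i) hu]
        apply mul_le_mul_of_nonneg_left _ (ht0 i)
        have := hy0 i
        have := hz0 i
        exact tangent_log (by positivity) (by positivity) (by positivity) (by positivity)
          (by positivity)
      have h2 := Finset.sum_le_sum fun i (_ : i ∈ Finset.univ) => h1 i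
      have h3 : ∑ i, t i * (log (1 + u * A / ((u + Y) * (u + Z))) - u * A / ((u + Y) * (u + Z) + u * A)
          * (((u + y' i) / (u + Y) - 1) + ((u + z' i) / (u + Z) - 1)))
          = log (1 + u * A / ((u + Y) * (u + Z))) + u * A / ((u + Y) * (u + Z) + u * A)
            * ((Y - ∑ i, t i * y' i) / (u + Y) + (Z - ∑ i, t i * z' i) / (u + Z)) := by
        have : ∀ i, t i * (log (1 + u * A / ((u + Y) * (u + Z))) - u * A / ((u + Y) * (u + Z) + u * A)
          * (((u + y' i) / (u + Y) - 1) + ((u + z' i) / (u + Z) - 1)))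
          = t i * (log (1 + u * A / ((u + Y) * (u + Z))) + u * A / ((u + Y) * (u + Z) + u * A)
            * (Y / (u + Y) + Z / (u + Z))) - (t i * y' i) * (u * A / ((u + Y) * (u + Z) + u * A) / (u + Y))
            - (t i * z' i) * (u * A / ((u + Y) * (u + Z) + u * A) / (u + Z)) := by
          intro i; field_simp; ring
        simp only [this, Finset.sum_sub_distrib, ← Finset.sum_mul, hts]
        field_simp; ring
      have h4 : ∑ i, t i * y' i ≤ Y := (Finset.sum_le_sum fun i _ => hty i).trans hY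
      have h5 : ∑ i, t i * z' i ≤ Z := (Finset.sum_le_sum fun i _ => htz i).trans hZ
      have h6 : 0 ≤ u * A / ((u + Y) * (u + Z) + u * A)
            * ((Y - ∑ i, t i * y' i) / (u + Y) + (Z - ∑ i, t i * z' i) / (u + Z)) := by
        have := sub_nonneg.mpr h4
        have := sub_nonneg.mpr h5
        positivity
      linarith)
  simp only [hterm]
  have h7 : ∑ i, t i * phi A (y' i) (z' i) = (∑ i, t i * (negMulLog (lp (A + y' i + z' i) (y' i * z' i))
        + negMulLog (lm (A + y' i + z' i) (y' i * z' i)) - negMulLog (y' i) - negMulLog (z' i)))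
        - negMulLog A := by
    have : ∀ i, t i * phi A (y' i) (z' i) = t i * (negMulLog (lp (A + y' i + z' i) (y' i * z' i))
        + negMulLog (lm (A + y' i + z' i) (y' i * z' i)) - negMulLog (y' i) - negMulLog (z' i))
        - t i * negMulLog A := by
      intro i; unfold phi E2; ring
    simp only [this, Finset.sum_sub_distrib, ← Finset.sum_mul, hts, one_mul]
  rw [h7]
  unfold phi E2
  linarith

end Vale.Agent.P358
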