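import Vale.Agent.P358.Entropy

/-! The entropy inequality for block amplitudes with one zero block. -/

set_option linter.unusedSectionVars false

namespace Vale.Agent.P358

open Matrix Finset Real
open scoped ComplexOrder

variable {R : Type*} [Fintype R] [DecidableEq R]

lemma qf_fromBlocks (A B B' C : Matrix R R ℂ) (x z x' z' : R → ℂ) :
    qf (fromBlocks A B B' C) (Sum.elim x z) (Sum.elim x' z')
      = qf A x x' + qf B x z' + qf B' z x' + qf C z z' := by
  unfold qf
  simp only [dotProduct, mulVec, Fintype.sum_sum_type, Pi.star_apply, Sum.elim_inl, Sum.elim_inr,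
    fromBlocks_apply₁₁, fromBlocks_apply₁₂, fromBlocks_apply₂₁, fromBlocks_apply₂₂, mul_add,
    Finset.sum_add_distrib]
  ring

lemma psd_block₁₁ {A B B' C : Matrix R R ℂ} (h : (fromBlocks A B B' C).PosSemidef) :
    A.PosSemidef := h.submatrix Sum.inl

lemma psd_block₂₂ {A B B' C : Matrix R R ℂ} (h : (fromBlocks A B B' C).PosSemidef) :
    C.PosSemidef := h.submatrix Sum.inr

lemma scalar_cs {a z n s u p w : ℝ} (ha : 0 ≤ a) (hz : 0 ≤ z) (hn : 0 ≤ n) (hs : 0 ≤ s)
    (hu : 0 < u) (hp2 : p ^ 2 ≤ a * n) (hw2 : w ^ 2 ≤ a * z * s) :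
    u * (p + w) ^ 2 ≤ a * (u + z) * (n + u * s) := by
  have h1 : (2 * u * p * w) ^ 2 ≤ (a * z * n + a * u ^ 2 * s) ^ 2 := by
    have h2 : p ^ 2 * w ^ 2 ≤ (a * n) * (a * z * s) :=
      mul_le_mul hp2 hw2 (sq_nonneg _) (by positivity)
    have h3 : (2 * u * p * w) ^ 2 = 4 * u ^ 2 * (p ^ 2 * w ^ 2) := by ring
    have h4 : 4 * u ^ 2 * (p ^ 2 * w ^ 2) ≤ 4 * u ^ 2 * ((a * n) * (a * z * s)) :=
      mul_le_mul_of_nonneg_left h2 (by positivity)
    nlinarith [sq_nonneg (a * z * n - a * u ^ 2 * s)]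
  have h5 : 2 * u * p * w ≤ a * z * n + a * u ^ 2 * s :=
    (le_abs_self _).trans (abs_le_of_sq_le_sq h1 (by positivity))
  nlinarith [mul_le_mul_of_nonneg_left hp2 hu.le, mul_le_mul_of_nonneg_left hw2 hu.le]

lemma sum_z_le (a : R → ℝ) (B C : Matrix R R ℂ)
    (hN : (fromBlocks (diagonal fun i => (a i : ℂ)) B Bᴴ C).PosSemidef) :
    ∑ k, (∑ j, ‖B k j‖ ^ 2) / a k ≤ C.trace.re := by
  have h1 : ∀ j, ∑ k, ‖B k j‖ ^ 2 / a k ≤ (C j j).re := by
    intro j
    have h := qf_re_nonneg hN (Sum.elim (fun k => -(B k j / a k)) (Pi.single j 1))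
    rw [qf_fromBlocks] at h
    have e1 : qf (diagonal fun i => (a i : ℂ)) (fun k => -(B k j / a k)) (fun k => -(B k j / a k))
        = ((∑ k, ‖B k j‖ ^ 2 / a k : ℝ) : ℂ) := by
      unfold qf
      simp only [dotProduct, mulVec_diagonal, Pi.star_apply, Complex.ofReal_sum]
      refine Finset.sum_congr rfl fun k _ => ?_
      by_cases hk : a k = 0
      · simp [hk]
      · have : (a k : ℂ) ≠ 0 := by exact_mod_cast hk
        have h2 := Complex.conj_mul' (B k j)
        simp only [star_neg, star_div₀, Complex.star_def, Complex.conj_ofReal]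
        push_cast
        field_simp
        linear_combination h2
    have e2 : qf B (fun k => -(B k j / a k)) (Pi.single j 1)
        = -((∑ k, ‖B k j‖ ^ 2 / a k : ℝ) : ℂ) := by
      unfold qf
      simp only [dotProduct, mulVec_single_one, Pi.star_apply, Complex.ofReal_sum,
        ← Finset.sum_neg_distrib]
      refine Finset.sum_congr rfl fun k _ => ?_
      have h2 := Complex.conj_mul' (B k j)
      simp only [star_neg, star_div₀, Complex.star_def, Complex.conj_ofReal, col_apply]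
      push_cast
      rw [← h2]; ring
    have e3 : qf Bᴴ (Pi.single j 1) (fun k => -(B k j / a k))
        = -((∑ k, ‖B k j‖ ^ 2 / a k : ℝ) : ℂ) := by
      unfold qf
      rw [Pi.star_single, star_one, single_dotProduct, one_mul]
      simp only [mulVec, dotProduct,
        conjTranspose_apply, Complex.ofReal_sum, ← Finset.sum_neg_distrib]
      refine Finset.sum_congr rfl fun k _ => ?_
      have h2 := Complex.conj_mul' (B k j)
      simp only [Complex.star_def]
      push_cast
      rw [← h2]; ring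
    have e4 : qf C (Pi.single j 1) (Pi.single j 1) = C j j := by
      unfold qf; simp
    rw [e1, e2, e3, e4] at h
    simp only [Complex.add_re, Complex.neg_re, Complex.ofReal_re] at h
    linarith
  calc ∑ k, (∑ j, ‖B k j‖ ^ 2) / a k = ∑ j, ∑ k, ‖B k j‖ ^ 2 / a k := by
        rw [Finset.sum_comm]; simp [Finset.sum_div]
    _ ≤ ∑ j, (C j j).re := Finset.sum_le_sum fun j _ => h1 j
    _ = C.trace.re := by simp [trace]

lemma posDef_shift {M : Matrix R R ℂ} (h : M.PosSemidef) {u : ℝ} (hu : 0 < u) :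
    ((u : ℂ) • (1 : Matrix R R ℂ) + M).PosDef := by
  apply PosDef.add_posSemidef _ h
  exact PosDef.one.smul (by exact_mod_cast hu)

lemma det_three (a : R → ℝ) (ha : ∀ k, 0 ≤ a k) (B C D : Matrix R R ℂ)
    (hN : (fromBlocks (diagonal fun i => (a i : ℂ)) B Bᴴ C).PosSemidef) (hD : D.PosSemidef)
    {u : ℝ} (hu : 0 < u) :
    ((u : ℂ) • (1 : Matrix R R ℂ) + C).det.re * (((u : ℂ) • (1 : Matrix R R ℂ) + D).det.re *
      ∏ k, (1 + u * a k / ((u + (D k k).re) * (u + (∑ j, ‖B k j‖ ^ 2) / a k))))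
      ≤ ((u : ℂ) • (1 : Matrix (R ⊕ R) (R ⊕ R) ℂ)
          + fromBlocks ((diagonal fun i => (a i : ℂ)) + D) B Bᴴ C).det.re := by
  set A : Matrix R R ℂ := diagonal fun i => (a i : ℂ) with hA
  set Q := (u : ℂ) • (1 : Matrix R R ℂ) + C with hQ
  set P := (u : ℂ) • (1 : Matrix R R ℂ) + D with hP
  have hQd : Q.PosDef := posDef_shift (psd_block₂₂ hN) hu
  have hPd : P.PosDef := posDef_shift hD hu
  let _ : Invertible Q := hQd.isUnit.invertible
  set H := A - B * Q⁻¹ * Bᴴ with hH
  have e0 : (u : ℂ) • (1 : Matrix (R ⊕ R) (R ⊕ R) ℂ) + fromBlocks (A + D) B Bᴴ C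
      = fromBlocks (P + A) B Bᴴ Q := by
    rw [← fromBlocks_one, fromBlocks_smul, fromBlocks_add]
    simp only [smul_zero, zero_add, hP, hQ]
    congr 1; abel
  have e1 : (fromBlocks (P + A) B Bᴴ Q).det = Q.det * (P + H).det := by
    rw [det_fromBlocks₂₂, invOf_eq_nonsing_inv, hH, add_sub_assoc]
  have hNu : (fromBlocks A B Bᴴ Q).PosSemidef := by
    have : fromBlocks A B Bᴴ Q = fromBlocks A B Bᴴ C
        + diagonal (Sum.elim (fun _ => 0) (fun _ => (u : ℂ))) := by
      rw [← fromBlocks_diagonal, fromBlocks_add]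
      simp only [diagonal_zero, add_zero, hQ]
      congr 1
      rw [add_comm]; congr 1
      ext i j; by_cases hij : i = j <;> simp [hij]
    rw [this]
    apply hN.add
    apply PosSemidef.diagonal
    rintro (i | i)
    · simp
    · simp [hu.le]
  have hHs : H.PosSemidef := (hQd.fromBlocks₂₂ A B).mp hNu
  have key : ∀ x k, (u * a k / (u + (∑ j, ‖B k j‖ ^ 2) / a k)) * ‖x k‖ ^ 2 ≤ (qf H x x).re := by
    intro x k
    rcases (ha k).eq_or_lt with h0 | hpos
    · rw [← h0]; simpa using qf_re_nonneg hHs x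
    set z : R → ℂ := -(Q⁻¹ *ᵥ (Bᴴ *ᵥ x)) with hz
    have hQz : Q *ᵥ z = -(Bᴴ *ᵥ x) := by
      rw [hz, mulVec_neg, mulVec_mulVec, Matrix.mul_inv_of_invertible, one_mulVec]
    have e2 : qf H x x = qf (fromBlocks A B Bᴴ C) (Sum.elim x z) (Sum.elim x z)
        + ((u * ∑ j, ‖z j‖ ^ 2 : ℝ) : ℂ) := by
      rw [qf_fromBlocks]
      have f1 : qf Q z z = qf C z z + ((u * ∑ j, ‖z j‖ ^ 2 : ℝ) : ℂ) := by
        rw [hQ, qf_add_mat, add_comm]
        congr 1
        unfold qf
        simp only [smul_mulVec, one_mulVec, dotProduct, Pi.smul_apply, Pi.star_apply, smul_eq_mul]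
        push_cast
        rw [Finset.mul_sum]
        refine Finset.sum_congr rfl fun j _ => ?_
        rw [← Complex.conj_mul' (z j)]; simp only [Complex.star_def]; ring
      have f2 : qf Q z z = -qf Bᴴ z x := by
        unfold qf; rw [hQz, dotProduct_neg]
      have f3 : qf H x x = qf A x x + qf B x z := by
        unfold qf
        rw [hH, sub_mulVec, dotProduct_sub, hz, mulVec_neg, dotProduct_neg, mulVec_mulVec,
          mulVec_mulVec, sub_eq_add_neg]
      rw [f3]; linear_combination f1 - f2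
    have cs := qf_cs hN (Sum.elim (Pi.single k 1) 0) (Sum.elim x z)
    have g1 : qf (fromBlocks A B Bᴴ C) (Sum.elim (Pi.single k 1) 0) (Sum.elim x z)
        = a k * x k + ∑ j, B k j * z j := by
      rw [qf_fromBlocks]; unfold qf
      simp [hA, mulVec, dotProduct, Pi.single_apply, diagonal_apply]
    have g2 : qf (fromBlocks A B Bᴴ C) (Sum.elim (Pi.single k 1) 0) (Sum.elim (Pi.single k 1) 0)
        = a k := by
      rw [qf_fromBlocks]; unfold qf
      simp [hA]
    rw [g1, g2, Complex.ofReal_re] at cs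
    set nn := (qf (fromBlocks A B Bᴴ C) (Sum.elim x z) (Sum.elim x z)).re with hnn
    have hnn0 : 0 ≤ nn := qf_re_nonneg hN _
    set s := ∑ j, ‖z j‖ ^ 2 with hs
    have hs0 : 0 ≤ s := by positivity
    set zk := (∑ j, ‖B k j‖ ^ 2) / a k with hzk
    have hzk0 : 0 ≤ zk := by positivity
    have hw : ‖∑ j, B k j * z j‖ ^ 2 ≤ a k * zk * s := by
      have t1 : ‖∑ j, B k j * z j‖ ≤ ∑ j, ‖B k j‖ * ‖z j‖ :=
        (norm_sum_le _ _).trans (le_of_eq (Finset.sum_congr rfl fun j _ => norm_mul _ _))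
      have t2 := Finset.sum_mul_sq_le_sq_mul_sq Finset.univ (fun j => ‖B k j‖) (fun j => ‖z j‖)
      have t3 : a k * zk = ∑ j, ‖B k j‖ ^ 2 := by rw [hzk]; field_simp
      rw [t3]
      exact (pow_le_pow_left₀ (norm_nonneg _) t1 2).trans t2
    have t4 := scalar_cs hpos.le hzk0 hnn0 hs0 hu cs hw
    have t5 : a k * ‖x k‖ ≤ ‖↑(a k) * x k + ∑ j, B k j * z j‖ + ‖∑ j, B k j * z j‖ := by
      have := norm_sub_le (↑(a k) * x k + ∑ j, B k j * z j) (∑ j, B k j * z j)
      rw [add_sub_cancel_right, norm_mul, Complex.norm_real, Real.norm_eq_abs,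
        abs_of_pos hpos] at this
      exact this
    have t6 : u * (a k * ‖x k‖) ^ 2 ≤ a k * (u + zk) * (nn + u * s) :=
      (mul_le_mul_of_nonneg_left (pow_le_pow_left₀ (by positivity) t5 2) hu.le).trans t4
    rw [e2, Complex.add_re, Complex.ofReal_re, ← hnn, div_mul_eq_mul_div,
      div_le_iff₀ (by positivity)]
    have t7 : a k * (u * a k * ‖x k‖ ^ 2) ≤ a k * ((nn + u * s) * (u + zk)) := by nlinarith
    exact le_of_mul_le_mul_left t7 hpos
  have main := det_ineq P H _ hPd hHs (fun k => by have := ha k; positivity) key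
  obtain ⟨q1, q2⟩ := det_re_pos hQd
  rw [e0, e1, q2, Complex.re_ofReal_mul, Complex.ofReal_re]
  apply mul_le_mul_of_nonneg_left _ q1.le
  refine le_trans (le_of_eq ?_) main
  congr 1
  refine Finset.prod_congr rfl fun k _ => ?_
  have : (P k k).re = u + (D k k).re := by simp [hP]
  rw [this, div_div, mul_comm (u + (D k k).re)]

lemma trace_fromBlocks' (A B B' C : Matrix R R ℂ) :
    (fromBlocks A B B' C).trace = A.trace + C.trace := by
  simp [trace, Fintype.sum_sum_type]

lemma three_path_diag (a : R → ℝ) (ha : ∀ k, 0 ≤ a k) (B C D : Matrix R R ℂ)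
    (hN : (fromBlocks (diagonal fun i => (a i : ℂ)) B Bᴴ C).PosSemidef) (hD : D.PosSemidef) :
    ∑ k, negMulLog (a k) + S C + S D + phi (∑ k, a k) D.trace.re C.trace.re
      ≤ S (fromBlocks ((diagonal fun i => (a i : ℂ)) + D) B Bᴴ C) := by
  set M := fromBlocks ((diagonal fun i => (a i : ℂ)) + D) B Bᴴ C with hM
  have hC := psd_block₂₂ hN
  have hMs : M.PosSemidef := by
    have : M = fromBlocks (diagonal fun i => (a i : ℂ)) B Bᴴ C + fromBlocks D 0 0 0 := by
      rw [fromBlocks_add]; simp [hM]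
    rw [this]
    apply hN.add
    have : (fromBlocks D 0 0 0 : Matrix (R ⊕ R) (R ⊕ R) ℂ)
        = (fromRows (1 : Matrix R R ℂ) (0 : Matrix R R ℂ)) * D * (fromRows (1 : Matrix R R ℂ) (0 : Matrix R R ℂ))ᴴ := by
      rw [conjTranspose_fromRows_eq_fromCols_conjTranspose, fromRows_mul, fromRows_mul_fromCols]
      simp
    rw [this]
    exact hD.mul_mul_conjTranspose_same _
  set y : R → ℝ := fun k => (D k k).re with hy
  set z : R → ℝ := fun k => (∑ j, ‖B k j‖ ^ 2) / a k with hz
  have hy0 : ∀ k, 0 ≤ y k := fun k => diag_re_nonneg hD k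
  have hz0 : ∀ k, 0 ≤ z k := fun k => by have := ha k; positivity
  have hsy : ∑ k, y k = D.trace.re := by simp [hy, trace]
  have key := log_principle
    (L := fun f => trf M f - trf C f - trf D f - ∑ k, (f (lp (a k + y k + z k) (y k * z k))
        + f (lm (a k + y k + z k) (y k * z k)) - f (y k) - f (z k)))
    (ev_sub (ev_sub (ev_sub (trf_mem_ev hMs) (trf_mem_ev hC)) (trf_mem_ev hD))
      (ev_sum fun k => ev_sub (ev_sub (ev_add
        (ev_point (lp_nonneg _ (by have := hy0 k; have := hz0 k; have := ha k; positivity)))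
        (ev_point (lm_nonneg (by have := hy0 k; have := hz0 k; have := ha k; positivity)
          (mul_nonneg (hy0 k) (hz0 k))))) (ev_point (hy0 k))) (ev_point (hz0 k))))
    (by simp [trf_one hMs.1, trf_one hC.1, trf_one hD.1])
    (by
      simp only [trf_id hMs.1, trf_id hC.1, trf_id hD.1, lp_add_lm]
      rw [hM, trace_fromBlocks', trace_add, trace_diagonal]
      simp [Finset.sum_add_distrib]
      ring)
    (by
      intro u hu
      simp only [trf_log hMs hu, trf_log hC hu, trf_log hD hu]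
      have h1 := det_three a ha B C D hN hD hu
      have h2 := (det_re_pos (posDef_shift hC hu)).1
      have h3 := (det_re_pos (posDef_shift hD hu)).1
      have h4 : ∀ k, 0 < 1 + u * a k / ((u + y k) * (u + z k)) := fun k => by
        have := hy0 k; have := hz0 k; have := ha k; positivity
      have h5 := log_le_log (mul_pos h2 (mul_pos h3 (Finset.prod_pos fun k _ => h4 k))) h1
      rw [log_mul h2.ne' (mul_pos h3 (Finset.prod_pos fun k _ => h4 k)).ne',
        log_mul h3.ne' (Finset.prod_pos fun k _ => h4 k).ne', log_prod (fun k _ => (h4 k).ne')] at h5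
      simp only [fun k => log_three (ha k) (hy0 k) (hz0 k) hu]
      linarith)
  have h6 := phi_superadd a y z ha hy0 hz0 rfl hsy.le (sum_z_le a B C hN)
  have h7 : ∑ k, phi (a k) (y k) (z k) = ∑ k, (negMulLog (lp (a k + y k + z k) (y k * z k))
        + negMulLog (lm (a k + y k + z k) (y k * z k)) - negMulLog (y k) - negMulLog (z k))
        - ∑ k, negMulLog (a k) := by
    rw [← Finset.sum_sub_distrib]
    exact Finset.sum_congr rfl fun k _ => by unfold phi E2; ring
  unfold S
  linarith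

theorem three_path (A B C D : Matrix R R ℂ) (hN : (fromBlocks A B Bᴴ C).PosSemidef)
    (hD : D.PosSemidef) :
    S A + S C + S D + phi A.trace.re D.trace.re C.trace.re ≤ S (fromBlocks (A + D) B Bᴴ C) := by
  have hA := psd_block₁₁ hN
  obtain ⟨U, h1, h2, -, h4⟩ := spectral hA.1
  set V : Matrix (R ⊕ R) (R ⊕ R) ℂ := fromBlocks U 0 0 1 with hV
  have hVV : V * Vᴴ = 1 := by
    rw [hV, fromBlocks_conjTranspose, fromBlocks_multiply]; simp [h2]
  have hconj : ∀ X : Matrix R R ℂ, Vᴴ * fromBlocks X B Bᴴ C * V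
      = fromBlocks (Uᴴ * X * U) (Uᴴ * B) (Uᴴ * B)ᴴ C := by
    intro X
    rw [hV, fromBlocks_conjTranspose, fromBlocks_multiply, fromBlocks_multiply]; simp
  have hN' := hN.conjTranspose_mul_mul_same V
  rw [hconj, h4] at hN'
  have hD' := hD.conjTranspose_mul_mul_same U
  have key := three_path_diag _ hA.eigenvalues_nonneg (Uᴴ * B) C (Uᴴ * D * U) hN' hD'
  have hH : (fromBlocks (A + D) B Bᴴ C).IsHermitian :=
    IsHermitian.fromBlocks (hA.1.add hD.1) rfl (psd_block₂₂ hN).1
  rw [← h4, ← Matrix.add_mul, ← Matrix.mul_add, ← hconj, S_conj' hH hVV, S_conj' hD.1 h2,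
    trace_mul_cycle, h2, Matrix.one_mul] at key
  have e1 : S A = ∑ k, negMulLog (hA.1.eigenvalues k) := trf_eq hA.1 _
  have e2 : A.trace.re = ∑ k, hA.1.eigenvalues k := by
    rw [← trf_id hA.1, trf_eq hA.1]
  rw [e1, e2]
  exact key

/-- subadditivity for a qubit factor -/
theorem S_block_le (A B C : Matrix R R ℂ) (hN : (fromBlocks A B Bᴴ C).PosSemidef) :
    S (fromBlocks A B Bᴴ C) ≤ S (A + C) + negMulLog A.trace.re + negMulLog C.trace.re
      - negMulLog (A.trace.re + C.trace.re) := by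
  have hA := psd_block₁₁ hN
  have hC := psd_block₂₂ hN
  obtain ⟨U, h1, h2, -, h4⟩ := spectral (hA.add hC).1
  set V : Matrix (R ⊕ R) (R ⊕ R) ℂ := fromBlocks U 0 0 U with hV
  have hVV : V * Vᴴ = 1 := by
    rw [hV, fromBlocks_conjTranspose, fromBlocks_multiply]; simp [h2]
  have hconj : Vᴴ * fromBlocks A B Bᴴ C * V
      = fromBlocks (Uᴴ * A * U) (Uᴴ * B * U) (Uᴴ * Bᴴ * U) (Uᴴ * C * U) := by
    rw [hV, fromBlocks_conjTranspose, fromBlocks_multiply, fromBlocks_multiply]; simp
  have h5 := S_le_diag (hN.conjTranspose_mul_mul_same V)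
  rw [S_conj' hN.1 hVV, hconj, Fintype.sum_sum_type] at h5
  simp only [fromBlocks_apply₁₁, fromBlocks_apply₂₂] at h5
  set p : R → ℝ := fun k => ((Uᴴ * A * U) k k).re with hp
  set q : R → ℝ := fun k => ((Uᴴ * C * U) k k).re with hq
  have hp0 : ∀ k, 0 ≤ p k := fun k => diag_re_nonneg (hA.conjTranspose_mul_mul_same U) k
  have hq0 : ∀ k, 0 ≤ q k := fun k => diag_re_nonneg (hC.conjTranspose_mul_mul_same U) k
  have hsp : ∑ k, p k = A.trace.re := by
    have : (Uᴴ * A * U).trace = A.trace := by rw [trace_mul_cycle, h2, Matrix.one_mul]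
    rw [← this]; simp [hp, trace]
  have hsq : ∑ k, q k = C.trace.re := by
    have : (Uᴴ * C * U).trace = C.trace := by rw [trace_mul_cycle, h2, Matrix.one_mul]
    rw [← this]; simp [hq, trace]
  have hpq : ∀ k, (hA.add hC).1.eigenvalues k = p k + q k := by
    intro k
    have := congrArg Complex.re (congrFun (congrFun h4 k) k)
    rw [Matrix.mul_add, Matrix.add_mul] at this
    simpa using this.symm
  have h6 := phi_superadd p q (fun _ => 0) hp0 hq0 (fun _ => le_rfl) hsp hsq.le
    (Z := 0) (by simp)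
  have hphi : ∀ x y : ℝ, phi x y 0 = negMulLog (x + y) - negMulLog x - negMulLog y := by
    intro x y
    unfold phi
    have := E2_of_roots (x := x + y) (y := 0)
    rw [mul_zero] at this
    rw [mul_zero, this]; simp
  simp only [hphi, Finset.sum_sub_distrib] at h6
  have e1 : S (A + C) = ∑ k, negMulLog (p k + q k) := by
    unfold S; rw [trf_eq (hA.add hC).1]; simp only [hpq]
  rw [e1]
  linarith

end Vale.Agent.P358
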